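import Vale.Agent.P265.T.Pull

/-! Part T: the local systems Tt. PLAN. rt z ^ 2 = z (Circle.exp_arg). Key elementary fact sn_div: if re (u^2) > 0 and re (v^2) > 0 then re^2 > 1/2 > im^2 for u and v (re^2 + im^2 = 1),
so the sign of re (u / v) = re u re v + im u im v is the product of the signs (nlinarith / abs). Tt_loc: near a, re (τ x / τ a) > 0, take ε x = sn (rt (τ x) / rt (τ a)) and
rt (τ x) / rt (τ y) = (rt (τ x) / rt (τ a)) / (rt (τ y) / rt (τ a)). gauge_Tt: g x = sn (w x), w x = rt (τ x) / (rt (τ' (f x)) * κ x), (w x)^2 = 1 so w x = 1 or -1 and sn (w x * u) = sn (w x) * sn u if re u ≠ 0;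
near a, with u x = rt (τ' (f x)) / rt (τ' (f a)), v x = κ x / κ a close to 1 (|v - 1| small, re (u^2) close to 1): sn (u x * v x) = sn (u x) by sn_div.
lift2: Circle.isCoveringMap_exp.liftHomotopy (or IsCoveringMap.liftHomotopy) with the constant lift 0; κ x = Circle.exp (η (1, x) / 2).
ht_unit: Tt 1 = 1. H0 is spanned by the constant cochain; for p+1 use ψ x l = φ x (() :: l): dT φ x (x :: y :: l) = d0 (ψ x) (y :: l), so dT ψ x (y :: l) = φ x (y :: l) (neighbourhoods in Unit are univ). -/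

open Set Topology Filter

noncomputable section
namespace Vale.Agent.P265.L

variable {W W' : Type} [TopologicalSpace W] [TopologicalSpace W']

theorem rt_sq (z : Circle) : rt z ^ 2 = z := by
  rw [rt, sq, ← Circle.exp_add, add_halves, Circle.exp_arg]

theorem sn_mul_self (z : Circle) : sn z * sn z = 1 := by
  unfold sn
  split_ifs <;> simp

theorem sn_div {u v : Circle} (hu : 0 < ((u ^ 2 : Circle) : ℂ).re) (hv : 0 < ((v ^ 2 : Circle) : ℂ).re) :
    sn (u / v) = sn u * sn v := by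
  have e : ((u / v : Circle) : ℂ).re = (u : ℂ).re * (v : ℂ).re + (u : ℂ).im * (v : ℂ).im := by
    rw [div_eq_mul_inv, Circle.coe_mul, Circle.coe_inv_eq_conj]
    simp
  have h1 : (u : ℂ).im ^ 2 < (u : ℂ).re ^ 2 := by
    rw [sq, Circle.coe_mul, Complex.mul_re] at hu
    nlinarith
  have h2 : (v : ℂ).im ^ 2 < (v : ℂ).re ^ 2 := by
    rw [sq, Circle.coe_mul, Complex.mul_re] at hv
    nlinarith
  unfold sn
  rw [e]
  generalize (u : ℂ).re = a at *
  generalize (u : ℂ).im = b at *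
  generalize (v : ℂ).re = c at *
  generalize (v : ℂ).im = d at *
  have h3 : (b * d) ^ 2 < (a * c) ^ 2 := by
    rw [mul_pow, mul_pow]
    exact mul_lt_mul'' h1 h2 (sq_nonneg _) (sq_nonneg _)
  have h4 := abs_lt.1 ((le_abs_self |b * d|).trans_lt (by rw [abs_abs]; exact sq_lt_sq.1 h3))
  by_cases ha : 0 < a <;> by_cases hc : 0 < c
  · rw [abs_of_pos (mul_pos ha hc)] at h4
    rw [if_pos ha, if_pos hc, if_pos (by linarith [h4.1])]
    simp
  · rw [abs_of_nonpos (mul_nonpos_of_nonneg_of_nonpos ha.le (not_lt.1 hc))] at h4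
    rw [if_pos ha, if_neg hc, if_neg (by linarith [h4.2])]
    simp
  · rw [abs_of_nonpos (mul_nonpos_of_nonpos_of_nonneg (not_lt.1 ha) hc.le)] at h4
    rw [if_neg ha, if_pos hc, if_neg (by linarith [h4.2])]
    simp
  · rw [abs_of_nonneg (mul_nonneg_of_nonpos_of_nonpos (not_lt.1 ha) (not_lt.1 hc))] at h4
    rw [if_neg ha, if_neg hc, if_pos (by linarith [h4.1])]
    simp

theorem tau_sn_one : sn 1 = 1 := by simp [sn]

theorem tau_near {c : W → Circle} (hc : Continuous c) {a : W} (ha : c a = 1) :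
    ∀ᶠ x in 𝓝 a, 0 < (c x : ℂ).re := by
  have h : Continuous fun x => (c x : ℂ).re :=
    Complex.continuous_re.comp (continuous_subtype_val.comp hc)
  exact h.continuousAt.eventually (lt_mem_nhds (by simp [ha]))

omit [TopologicalSpace W] in
theorem Tt_one (x y : W) : Tt 1 x y = 1 := by
  simp [Tt, tau_sn_one]

theorem Tt_loc {τ : W → Circle} (hτ : Continuous τ) (a : W) :
    ∃ ε : W → F3, (∀ x, ε x * ε x = 1) ∧ ∃ U ∈ 𝓝 a, ∀ x ∈ U, ∀ y ∈ U, Tt τ x y = ε x * ε y := by
  refine ⟨fun x => sn (rt (τ x) / rt (τ a)), fun x => sn_mul_self _, _,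
    tau_near (c := fun x => τ x / τ a) (hτ.div' continuous_const) (a := a) (by simp),
    fun x hx y hy => ?_⟩
  rw [← sn_div (by rwa [div_pow, rt_sq, rt_sq]) (by rwa [div_pow, rt_sq, rt_sq]),
    div_div_div_cancel_right, Tt]

omit [TopologicalSpace W] in
theorem Tt_self (τ : W → Circle) (x : W) : Tt τ x x = 1 := by
  simp [Tt, tau_sn_one]

theorem locSys_Tt {τ : W → Circle} (hτ : Continuous τ) : LocSys (Tt τ) := by
  intro a
  obtain ⟨ε, hε, U, hU, h⟩ := Tt_loc hτ a
  refine ⟨U, hU, fun x hx => ⟨Tt_self τ x, fun y hy z hz => ?_⟩⟩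
  rw [h x hx y hy, h y hy z hz, h x hx z hz, mul_assoc, ← mul_assoc (ε y), hε, one_mul]

theorem gauge_Tt {f : W → W'} (hf : Continuous f) {τ : W → Circle} {τ' : W' → Circle}
    (hτ' : Continuous τ') {κ : W → Circle} (hκ : Continuous κ)
    (h : ∀ x, τ x = τ' (f x) * κ x ^ 2) :
    ∃ g : W → F3, (∀ x, g x ≠ 0) ∧ Gauge f g (Tt τ) (Tt τ') := by
  refine ⟨fun x => sn (rt (τ' (f x)) * κ x / rt (τ x)), fun x hx => ?_, fun a => ?_⟩
  · have := sn_mul_self (rt (τ' (f x)) * κ x / rt (τ x))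
    rw [show sn (rt (τ' (f x)) * κ x / rt (τ x)) = 0 from hx] at this
    simp at this
  have c1 : Continuous fun x => τ' (f x) / τ' (f a) := (hτ'.comp hf).div' continuous_const
  have c2 : Continuous fun x => κ a / κ x := continuous_const.div' hκ
  have n1 := tau_near c1 (a := a) (by simp)
  have n2 := tau_near c2 (a := a) (by simp)
  have n3 := tau_near (c2.pow 2) (a := a) (by simp)
  have n4 := tau_near (c1.div' (c2.pow 2)) (a := a) (by simp)
  have key : ∀ x, 0 < ((τ' (f x) / τ' (f a) : Circle) : ℂ).re → 0 < ((κ a / κ x : Circle) : ℂ).re →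
      0 < (((κ a / κ x) ^ 2 : Circle) : ℂ).re →
      0 < ((τ' (f x) / τ' (f a) / (κ a / κ x) ^ 2 : Circle) : ℂ).re →
      0 < (((rt (τ x) / (rt (τ' (f a)) * κ a)) ^ 2 : Circle) : ℂ).re ∧
        sn (rt (τ x) / (rt (τ' (f a)) * κ a)) =
          sn (rt (τ' (f x)) / rt (τ' (f a))) * sn (rt (τ' (f x)) * κ x / rt (τ x)) := by
    intro x m1 m2 m3 m4
    have w2 : (rt (τ' (f x)) * κ x / rt (τ x)) ^ 2 = 1 := by
      rw [div_pow, mul_pow, rt_sq, rt_sq, ← h x, div_self']
    have e : rt (τ x) / (rt (τ' (f a)) * κ a) =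
        rt (τ' (f x)) / rt (τ' (f a)) / (κ a / κ x) / (rt (τ' (f x)) * κ x / rt (τ x)) := by
      apply Circle.ext
      push_cast
      field_simp
    have u2 : (rt (τ' (f x)) / rt (τ' (f a))) ^ 2 = τ' (f x) / τ' (f a) := by
      rw [div_pow, rt_sq, rt_sq]
    have s1 : sn (κ a / κ x) = 1 := if_pos m2
    rw [e]
    refine ⟨by rwa [div_pow, w2, div_one, div_pow, u2], ?_⟩
    rw [sn_div (by rwa [div_pow, u2]) (by rw [w2]; simp), sn_div (by rwa [u2]) m3, s1, mul_one]
  refine ⟨_, n1.and (n2.and (n3.and n4)), fun x hx y hy => ?_⟩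
  obtain ⟨p1, q1⟩ := key x hx.1 hx.2.1 hx.2.2.1 hx.2.2.2
  obtain ⟨p2, q2⟩ := key y hy.1 hy.2.1 hy.2.2.1 hy.2.2.2
  have e1 : Tt τ x y = _ := (congrArg sn (div_div_div_cancel_right _ _ _).symm).trans (sn_div p1 p2)
  have e2 : Tt τ' (f x) (f y) =
      sn (rt (τ' (f x)) / rt (τ' (f a))) * sn (rt (τ' (f y)) / rt (τ' (f a))) := by
    rw [← sn_div (by rw [div_pow, rt_sq, rt_sq]; exact hx.1)
      (by rw [div_pow, rt_sq, rt_sq]; exact hy.1), div_div_div_cancel_right, Tt]
  rw [e1, e2, q1, q2]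
  have := sn_mul_self (rt (τ' (f y)) * κ y / rt (τ y))
  linear_combination (sn (rt (τ' (f x)) / rt (τ' (f a))) * sn (rt (τ' (f x)) * κ x / rt (τ x)) *
    sn (rt (τ' (f y)) / rt (τ' (f a)))) * this

theorem lift2 (h : C(unitInterval × W, Circle)) (h0 : ∀ x, h (0, x) = 1) :
    ∃ κ : W → Circle, Continuous κ ∧ ∀ x, h (1, x) = κ x ^ 2 := by
  have H0 : ∀ x, h (0, x) = Circle.exp ((ContinuousMap.const W (0 : ℝ)) x) := fun x => by
    simp [h0]
  let η := Circle.isCoveringMap_exp.liftHomotopy h (ContinuousMap.const W (0 : ℝ)) H0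
  have hη : ∀ q, Circle.exp (η q) = h q := fun q =>
    congrFun (Circle.isCoveringMap_exp.liftHomotopy_lifts h _ H0) q
  refine ⟨fun x => Circle.exp (η (1, x) / 2), by fun_prop, fun x => ?_⟩
  rw [sq, ← Circle.exp_add, add_halves, hη]

theorem tau_triv {T : W → W → F3} {p : ℕ} (h : Zc T p ≤ Bc T p) :
    FiniteDimensional F3 (Hc T p) ∧ Module.finrank F3 (Hc T p) = 0 := by
  have : Subsingleton (Hc T p) := by
    refine subsingleton_of_forall_eq 0 fun x => ?_
    obtain ⟨φ, rfl⟩ := Submodule.Quotient.mk_surjective _ x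
    exact (mk_eq_zero_iff φ).2 (h φ.2)
  exact ⟨inferInstance, Module.finrank_zero_of_subsingleton⟩

theorem tau_cs (p : ℕ) (φ : Co Unit) : CS p φ := ⟨univ, isCompact_univ, fun _ ha => absurd trivial ha⟩

theorem ht_unit : HT Unit 1 (Pi.single 0 1) := by
  intro n
  cases n with
  | zero =>
    let ev : Zc (Tt (1 : Unit → Circle)) 0 →ₗ[F3] F3 :=
      { toFun := fun φ => φ.1 () [], map_add' := fun _ _ => rfl, map_smul' := fun _ _ => rfl }
    have hs : Function.Surjective ev := fun c => by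
      refine ⟨⟨fun _ _ => c, tau_cs _ _, fun a => ⟨univ, univ_mem, fun x l hl _ _ => ?_⟩⟩, rfl⟩
      obtain ⟨y, rfl⟩ := List.length_eq_one_iff.1 hl
      simp [dT, d0, Tt_one]
    have hk : (Bc (Tt (1 : Unit → Circle)) 0).submoduleOf (Zc (Tt 1) 0) = LinearMap.ker ev := by
      ext φ
      constructor
      · rintro ⟨ψ, -, h⟩
        obtain ⟨U, hU, h⟩ := h ()
        have := h () [] rfl (mem_of_mem_nhds hU) (by simp)
        show φ.1 () [] = 0
        simpa [dT] using this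
      · intro h
        refine mem_Bc_of_lz fun a => ⟨univ, univ_mem, fun x l hl _ _ => ?_⟩
        obtain rfl := List.length_eq_zero_iff.1 hl
        exact h
    let E : Hc (Tt (1 : Unit → Circle)) 0 ≃ₗ[F3] F3 :=
      (Submodule.quotEquivOfEq _ _ hk).trans (ev.quotKerEquivOfSurjective hs)
    exact ⟨E.symm.finiteDimensional, by rw [E.finrank_eq]; simp⟩
  | succ p =>
    have := tau_triv (T := Tt (1 : Unit → Circle)) (p := p + 1) fun φ hφ => ?_
    · simpa using this
    obtain ⟨U, hU, h⟩ := hφ.2 ()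
    have hU' : ∀ y, y ∈ U := fun _ => mem_of_mem_nhds hU
    refine ⟨fun x l => φ x (() :: l), fun q _ => tau_cs _ _, fun a =>
      ⟨univ, univ_mem, fun x l hl _ _ => ?_⟩⟩
    cases l with
    | nil => simp at hl
    | cons y l =>
      have h1 := h () (() :: () :: l) (by simpa using hl) (hU' _) fun y _ => hU' y
      have h2 : d0 (φ ()) (() :: () :: l) =
          φ () (() :: l) - d0 (fun m => φ () (() :: m)) (() :: l) := rfl
      have h3 : dT (Tt (1 : Unit → Circle)) φ () (() :: () :: l) =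
          Tt (1 : Unit → Circle) () () * φ () (() :: l) - d0 (φ ()) (() :: () :: l) := rfl
      have h4 : (φ - dT (Tt (1 : Unit → Circle)) fun x l => φ x (() :: l)) x (y :: l) =
          φ () (() :: l) - (Tt (1 : Unit → Circle) () () * φ () (() :: l) -
            d0 (fun m => φ () (() :: m)) (() :: l)) := rfl
      rw [h3, h2, Tt_one] at h1
      rw [h4, Tt_one]
      linear_combination h1

theorem ht_empty [IsEmpty W] (τ : W → Circle) : HT W τ 0 :=
  hb_zero_iff.2 fun _ _ _ => mem_Bc_of_lz fun a => isEmptyElim a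

theorem HT.unique {τ : W → Circle} {f g : ℕ → ℕ} (h : HT W τ f) (h' : HT W τ g) : f = g :=
  funext fun n => (h n).2.symm.trans (h' n).2

theorem ht_homeo (e : W ≃ₜ W') {τ : W → Circle} {τ' : W' → Circle} (hτ' : Continuous τ')
    {κ : W → Circle} (hκ : Continuous κ) (h : ∀ x, τ x = τ' (e x) * κ x ^ 2) (f : ℕ → ℕ) :
    HT W τ f ↔ HT W' τ' f := by
  obtain ⟨g, hg0, hg⟩ := gauge_Tt e.continuous hτ' hκ h
  exact hb_homeo e hg0 hg f

theorem ht_retract {p : W → W'} {s : W' → W} (hp : IsProperMap p) (hs : IsProperMap s)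
    (h : ∀ x, p (s x) = x) {f g : ℕ → ℕ} (hf : HT W 1 f) (hg : HT W' 1 g) (n : ℕ) :
    g n ≤ f n := by
  have : FiniteDimensional F3 (Hc (fun x y => Tt (1 : W' → Circle) (p x) (p y)) n) := (hf n).1
  have h2 := (hb_retract hp hs h (T' := Tt (1 : W' → Circle)) (n := n)).2
  rw [← (hf n).2, ← (hg n).2]
  exact h2

end Vale.Agent.P265.L
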