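import Vale.Agent.P265.T.Alg

/-! Part T: small shifts. PLAN. unif: K from CS, N compact neighbourhood of K, φ' = cut N φ (φ - φ' is LZ everywhere, so dT φ' is LZ everywhere). Lebesgue number
(lebesgue_number_lemma_of_metric or IsCompact + balls) for a compact neighbourhood N' ⊇ cthickening δ N (IsCompact.exists_isCompact_cthickening / exists_cthickening_subset_open): if x ∈ N' the ball lies in a Van set; if x ∉ N' the small ball misses N and
all terms vanish (Van.dT with φ' zero off N). step: ψ = - Dp s φ, it vanishes unless x ∈ N (every term has first argument x; induction on the list), so CS with N (closed since compact); prism and Van.Dp with U = ball x ε, V = ball x (ε / 2).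
hb_half: s (y,t) = (y, t + ε / 3) is an isometry, iterate: φ_m x l = φ' (s^m x) (map s^m l) has the same two properties (with the compact set N ∩ preimage or a fixed compact box containing all shifts back), T y y = 1, and φ_m = 0 for m large. hb_zero_iff. -/

open Set Topology Filter

noncomputable section
namespace Vale.Agent.P265.L

variable {W : Type} [MetricSpace W]

theorem unif [LocallyCompactSpace W] {T : W → W → F3} {p : ℕ} {φ : Co W} (h : φ ∈ Zc T p) :
    ∃ (φ' : Co W) (N : Set W) (ε : ℝ), IsCompact N ∧ 0 < ε ∧ (∀ a, LZ p (φ - φ') a) ∧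
      (∀ x ∉ N, ∀ l, φ' x l = 0) ∧ ∀ x, Van (p + 1) (dT T φ') (Metric.ball x ε) := by
  obtain ⟨⟨K, hK, hKz⟩, hd⟩ := h
  obtain ⟨N, hN, hKN⟩ := exists_compact_superset hK
  have hlz : ∀ a, LZ p (φ - cut N φ) a := by
    intro a
    by_cases ha : a ∈ K
    · exact lz_sub_cut (mem_interior_iff_mem_nhds.1 (hKN ha))
    · exact (hKz a ha).sub ((hKz a ha).cut N)
  have hd' : ∀ a, LZ (p + 1) (dT T (cut N φ)) a := by
    intro a
    have := (hd a).sub ((hlz a).dT T)
    rw [dT_sub, sub_sub_cancel] at this
    exact this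
  obtain ⟨δ, hδ, hN'⟩ := hN.exists_isCompact_cthickening
  choose U hU hV using hd'
  obtain ⟨ε, hε, hε'⟩ := lebesgue_number_lemma_of_metric hN' (c := fun a => interior (U a))
    (fun a => isOpen_interior)
    (fun x _ => mem_iUnion.2 ⟨x, mem_interior_iff_mem_nhds.2 (hU x)⟩)
  refine ⟨cut N φ, N, min ε δ, hN, lt_min hε hδ, hlz, fun x hx l => by simp [cut, hx],
    fun x => ?_⟩
  by_cases hx : x ∈ Metric.cthickening δ N
  · obtain ⟨a, ha⟩ := hε' x hx
    exact (hV a).mono
      ((Metric.ball_subset_ball (min_le_left _ _)).trans (ha.trans interior_subset))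
  · refine Van.dT T fun y l _ hy _ => ?_
    have hy' : dist x y ≤ δ := by
      rw [dist_comm]
      exact ((Metric.mem_ball.1 hy).trans_le (min_le_right _ _)).le
    have : y ∉ N := fun hyN => hx (Metric.mem_cthickening_of_dist_le x y δ N hyN hy')
    simp [cut, this]

omit [MetricSpace W] in
theorem shift_pr_zero (s : W → W) (ψ : List W → F3) (h : ∀ m, ψ m = 0) (l : List W) :
    pr s ψ l = 0 := by
  induction l generalizing ψ with
  | nil => simp [pr]
  | cons x l ih =>
    have := ih (fun m => ψ (x :: m)) (fun m => h _)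
    rw [pr, this, h, sub_zero]

theorem shift_step (T : W → W → F3) {p : ℕ} {φ : Co W} {N : Set W} (hN : IsCompact N) {ε : ℝ}
    (hε : 0 < ε) (h0 : ∀ x ∉ N, ∀ l, φ x l = 0)
    (h1 : ∀ x, Van (p + 1) (dT T φ) (Metric.ball x ε)) {s : W → W}
    (hs : ∀ x, dist (s x) x < ε / 2) :
    φ - pc s (fun x => T x (s x)) φ ∈ Bc T p := by
  refine ⟨-Dp s φ, fun q _ => CS.neg ⟨N, hN, fun a ha => ?_⟩, fun a => ?_⟩
  · refine ⟨Nᶜ, hN.isClosed.isOpen_compl.mem_nhds ha, fun x l _ hx _ => ?_⟩
    simp only [Dp, h0 x hx, shift_pr_zero s (φ x) (h0 x hx), sub_zero]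
  · have e : φ - pc s (fun x => T x (s x)) φ - dT T (-Dp s φ) = -Dp s (dT T φ) := by
      have hneg : dT T (-Dp s φ) = -dT T (Dp s φ) := by
        have := dT_sub T 0 (Dp s φ)
        rwa [zero_sub, dT_zero, zero_sub] at this
      rw [hneg]
      funext x l
      have := prism T s φ x l
      simp only [Pi.sub_apply, Pi.neg_apply, pc]
      linear_combination this
    rw [e]
    refine LZ.neg ⟨Metric.ball a (ε / 2), Metric.ball_mem_nhds a (half_pos hε), ?_⟩
    refine Van.Dp (h1 a) (Metric.ball_subset_ball (half_le_self hε.le)) fun x hx => ?_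
    have h2 := hs x
    have h3 := Metric.mem_ball.1 hx
    have h4 := dist_triangle (s x) x a
    exact Metric.mem_ball.2 (by linarith)

/-- The shift of the half line factor. -/
def shift_map {L : Type} (c : ℝ) (hc : 0 ≤ c) (x : L × Ici (0 : ℝ)) : L × Ici (0 : ℝ) :=
  (x.1, ⟨x.2.1 + c, add_nonneg x.2.2 hc⟩)

theorem shift_iter_fst {L : Type} (c : ℝ) (hc : 0 ≤ c) (m : ℕ) (x : L × Ici (0 : ℝ)) :
    ((shift_map c hc)^[m] x).1 = x.1 := by
  induction m with
  | zero => rfl
  | succ m ih => rw [Function.iterate_succ_apply']; exact ih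

theorem shift_iter_snd {L : Type} (c : ℝ) (hc : 0 ≤ c) (m : ℕ) (x : L × Ici (0 : ℝ)) :
    (((shift_map c hc)^[m] x).2 : ℝ) = x.2 + m * c := by
  induction m with
  | zero => simp
  | succ m ih =>
    rw [Function.iterate_succ_apply']
    show (((shift_map c hc)^[m] x).2 : ℝ) + c = _
    rw [ih]; push_cast; ring

theorem shift_iter_dist {L : Type} [MetricSpace L] (c : ℝ) (hc : 0 ≤ c) (m : ℕ)
    (x y : L × Ici (0 : ℝ)) :
    dist ((shift_map c hc)^[m] x) ((shift_map c hc)^[m] y) = dist x y := by
  rw [Prod.dist_eq, Prod.dist_eq, shift_iter_fst, shift_iter_fst, Subtype.dist_eq,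
    Subtype.dist_eq, shift_iter_snd, shift_iter_snd, dist_add_right]

theorem shift_dist {L : Type} [MetricSpace L] (c : ℝ) (hc : 0 ≤ c) (x : L × Ici (0 : ℝ)) :
    dist (shift_map c hc x) x = c := by
  rw [Prod.dist_eq, Subtype.dist_eq]
  simp [shift_map, abs_of_nonneg hc, hc]

theorem hb_half {L : Type} [MetricSpace L] [LocallyCompactSpace L] (T : L → L → F3)
    (hT : ∀ y, T y y = 1) : HB (fun a b : L × Ici (0 : ℝ) => T a.1 b.1) 0 := by
  refine hb_zero_iff.2 fun p φ hφ => ?_
  have : LocallyCompactSpace (Ici (0 : ℝ)) := isClosed_Ici.locallyCompactSpace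
  obtain ⟨φ', N, ε, hN, hε, hlz, h0, h1⟩ := unif hφ
  have hc : (0 : ℝ) < ε / 3 := by positivity
  obtain ⟨R, hR⟩ : ∃ R : ℝ, ∀ x ∈ N, (x.2 : ℝ) ≤ R := by
    obtain ⟨R, hR⟩ := (hN.image (f := fun x : L × Ici (0 : ℝ) => (x.2 : ℝ))
      (by fun_prop)).bddAbove
    exact ⟨R, fun x hx => hR (mem_image_of_mem _ hx)⟩
  set s : L × Ici (0 : ℝ) → L × Ici (0 : ℝ) := shift_map (ε / 3) hc.le with hs
  have hB : IsCompact ((Prod.fst '' N) ×ˢ {t : Ici (0 : ℝ) | (t : ℝ) ≤ R}) := by
    refine (hN.image continuous_fst).prod ?_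
    rw [Subtype.isCompact_iff]
    refine (isCompact_Icc (a := (0 : ℝ)) (b := R)).of_isClosed_subset ?_ ?_
    · exact isClosed_Ici.isClosedEmbedding_subtypeVal.isClosedMap _
        (isClosed_le continuous_subtype_val continuous_const)
    · rintro _ ⟨t, ht, rfl⟩
      exact ⟨t.2, ht⟩
  have key : ∀ m : ℕ, φ' - pc s^[m] (fun _ => 1) φ' ∈
      Bc (fun a b : L × Ici (0 : ℝ) => T a.1 b.1) p := by
    intro m
    induction m with
    | zero =>
      have : pc s^[0] (fun _ => 1) φ' = φ' := by
        funext x l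
        simp [pc]
      rw [this, sub_self]
      exact zero_mem _
    | succ m ih =>
      have hstep := shift_step (fun a b : L × Ici (0 : ℝ) => T a.1 b.1) (p := p)
        (φ := pc s^[m] (fun _ => 1) φ') hB hε (s := s) ?_ ?_ ?_
      · have e : pc s (fun x => T x.1 (s x).1) (pc s^[m] (fun _ => 1) φ') =
            pc s^[m + 1] (fun _ => 1) φ' := by
          funext x l
          have : (s x).1 = x.1 := rfl
          simp only [pc, this, hT, one_mul, List.map_map, Function.iterate_succ,
            Function.comp_apply]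
        rw [e] at hstep
        have := add_mem ih hstep
        rwa [sub_add_sub_cancel] at this
      · intro x hx l
        have : s^[m] x ∉ N := by
          intro hxN
          refine hx ⟨⟨_, hxN, shift_iter_fst _ _ m x⟩, ?_⟩
          have h2 := hR _ hxN
          rw [hs, shift_iter_snd] at h2
          have h3 : (0 : ℝ) ≤ m * (ε / 3) := by positivity
          show (x.2 : ℝ) ≤ R
          linarith
        simp only [pc, h0 _ this, mul_zero]
      · intro x y l hl hy hl'
        obtain ⟨z, l, rfl⟩ := List.exists_cons_of_length_eq_add_one hl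
        have hb : ∀ w ∈ Metric.ball x ε, s^[m] w ∈ Metric.ball (s^[m] x) ε := by
          intro w hw
          rw [Metric.mem_ball, hs, shift_iter_dist]
          exact hw
        rw [dT_pc (T' := fun a b : L × Ici (0 : ℝ) => T a.1 b.1) φ' y z l
          (by rw [hs]; simp only [shift_iter_fst, mul_one, one_mul])]
        simp only [pc, one_mul]
        refine h1 (s^[m] x) _ _ (by simpa using hl) (hb y hy) fun w hw => ?_
        obtain ⟨v, hv, rfl⟩ := List.mem_map.1 hw
        exact hb v (hl' v hv)
      · intro x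
        rw [hs, shift_dist]
        linarith
  obtain ⟨m, hm⟩ := exists_nat_gt (R / (ε / 3))
  have hz : pc s^[m] (fun _ => 1) φ' = 0 := by
    funext x l
    have : s^[m] x ∉ N := by
      intro hxN
      have h2 := hR _ hxN
      rw [hs, shift_iter_snd] at h2
      rw [div_lt_iff₀ hc] at hm
      have h3 : (0 : ℝ) ≤ x.2 := x.2.2
      linarith
    simp only [pc, h0 _ this, mul_zero, Pi.zero_apply]
  have h2 := key m
  rw [hz, sub_zero] at h2
  have := add_mem (mem_Bc_of_lz (T := fun a b : L × Ici (0 : ℝ) => T a.1 b.1) hlz) h2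
  rwa [sub_add_cancel] at this

end Vale.Agent.P265.L
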