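import Vale.Agent.P265.T.Api
import Vale.Agent.P265.T.Shift

/-! Part T: products with lines and circles, cells. PLAN. ht_half: hb_half with Tt_self. ht_real: ht_total0 for W × Ici 0 with the open embedding (w,t) ↦ (w, exp t) and the closed embedding w ↦ (w,0).
ht_pi: induction on s with Fin.consEquiv / Homeomorph.piFinSuccAbove / Fin.insertNthHomeomorph style homeomorphisms and ht_homeo (κ = 1); sh 1 (sh s b) = sh (s+1) b.
ht_circle: ht_split with i w = (w,1), p = fst (proper, Circle compact: isProperMap_fst_of_compactSpace), j (w,t) = (w, c t), c : ℝ → Circle an open embedding onto {1}ᶜ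
(for instance c t = Circle.exp (π + 2 arctan t), or Cayley), then ht_real. ht_cell: lift2 with h (s,u) = τ (s • u) / τ 0, ht_homeo to Unit × (Fin n → ℝ) with τ' = 1 (the constant τ 0 is a square: τ 0 = rt (τ 0) ^ 2), ht_pi, ht_unit.
ht_pos: ht_retract with Unit. -/

open Set Topology Filter

noncomputable section
namespace Vale.Agent.P265.L

variable {W : Type} [MetricSpace W] [LocallyCompactSpace W] {τ : W → Circle}

theorem ht_half (τ : W → Circle) : HT (W × Ici (0 : ℝ)) (fun p => τ p.1) 0 := by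
  exact hb_half (Tt τ) (Tt_self τ)

theorem api2_cut {W Y : Type} [MetricSpace W] [MetricSpace Y] {c : ℝ → Y}
    (hc : IsOpenEmbedding c) {y : Y} (hr : ∀ z, z = y ↔ z ∉ range c) :
    IsOpenEmbedding (Prod.map id c : W × ℝ → W × Y) ∧ IsClosedEmbedding (fun w : W => (w, y)) ∧
      range (fun w : W => (w, y)) = (range (Prod.map id c : W × ℝ → W × Y))ᶜ := by
  refine ⟨IsOpenEmbedding.id.prodMap hc, Function.LeftInverse.isClosedEmbedding (f := Prod.fst)
    (fun _ => rfl) continuous_fst (by fun_prop), ?_⟩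
  ext ⟨w, z⟩
  rw [range_prodMap, range_id, mem_compl_iff, mem_prod]
  constructor
  · rintro ⟨w', e⟩ h
    exact (hr z).1 (congrArg Prod.snd e).symm h.2
  · intro h
    exact ⟨w, by rw [(hr z).2 fun h' => h ⟨mem_univ _, h'⟩]⟩

theorem api2_exp : ∃ c : ℝ → Ici (0 : ℝ), IsOpenEmbedding c ∧
    ∀ z, z = ⟨0, self_mem_Ici⟩ ↔ z ∉ range c := by
  have hr : range (fun t : ℝ => (⟨Real.exp t, (Real.exp_pos t).le⟩ : Ici (0 : ℝ))) =
      Subtype.val ⁻¹' Ioi 0 := by
    ext z
    constructor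
    · rintro ⟨t, rfl⟩
      exact Real.exp_pos t
    · intro h
      exact ⟨Real.log z, Subtype.ext (Real.exp_log h)⟩
  refine ⟨fun t => ⟨Real.exp t, (Real.exp_pos t).le⟩,
    ⟨Real.isOpenEmbedding_exp.isEmbedding.codRestrict _ _, ?_⟩, fun z => ?_⟩
  · rw [hr]
    exact isOpen_Ioi.preimage continuous_subtype_val
  · rw [hr]
    constructor
    · rintro rfl h
      exact lt_irrefl (0 : ℝ) h
    · intro h
      exact Subtype.ext (le_antisymm (not_lt.1 h) z.2)

theorem api2_circ : ∃ c : ℝ → Circle, IsOpenEmbedding c ∧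
    ∀ z, z = Circle.exp Real.pi ↔ z ∉ range c := by
  have hπ := Real.pi_pos
  have ha : ∀ t, Complex.arg (Circle.exp (2 * Real.arctan t)) = 2 * Real.arctan t := fun t =>
    Circle.arg_exp (by linarith [Real.neg_pi_div_two_lt_arctan t])
      (by linarith [Real.arctan_lt_pi_div_two t])
  have h1 : IsOpenMap Real.arctan :=
    (Real.tanPartialHomeomorph.symm.isOpenEmbedding rfl).isOpenMap
  refine ⟨fun t => Circle.exp (2 * Real.arctan t),
    IsOpenEmbedding.of_continuous_injective_isOpenMap (by fun_prop) (fun s t e => ?_) ?_,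
    fun z => ⟨?_, fun h => ?_⟩⟩
  · have e' : Circle.exp (2 * Real.arctan s) = Circle.exp (2 * Real.arctan t) := e
    have h2 := ha s
    rw [e', ha t] at h2
    exact Real.arctan_injective (by linarith)
  · exact Circle.isCoveringMap_exp.isOpenMap.comp
      ((Homeomorph.mulLeft₀ (2 : ℝ) two_ne_zero).isOpenMap.comp h1)
  · rintro rfl ⟨t, e⟩
    have e' : Circle.exp (2 * Real.arctan t) = Circle.exp Real.pi := e
    have h2 := ha t
    rw [e', Circle.arg_exp (by linarith) le_rfl] at h2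
    linarith [Real.arctan_lt_pi_div_two t]
  · by_contra hz
    have h2 : Complex.arg z ≠ Real.pi := fun e => hz (by rw [← e, Circle.exp_arg])
    have h3 := (Complex.arg_le_pi z).lt_of_ne h2
    have h4 := Complex.neg_pi_lt_arg z
    refine h ⟨Real.tan (Complex.arg z / 2), ?_⟩
    show Circle.exp (2 * Real.arctan (Real.tan (Complex.arg z / 2))) = z
    rw [Real.arctan_tan (by linarith) (by linarith), mul_div_cancel₀ _ two_ne_zero, Circle.exp_arg]

theorem ht_real (hτ : Continuous τ) (h : ℕ → ℕ) :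
    HT (W × ℝ) (fun p => τ p.1) h ↔ ∃ b, HT W τ b ∧ h = sh 1 b := by
  obtain ⟨c, hc, hr⟩ := api2_exp
  obtain ⟨h1, h2, h3⟩ := api2_cut (W := W) hc hr
  have : LocallyCompactSpace (Ici (0 : ℝ)) := isClosed_Ici.locallyCompactSpace
  exact ht_total0 (τ := fun p : W × Ici (0 : ℝ) => τ p.1) (hτ.comp continuous_fst) h1 h2 h3
    (ht_half τ) h

theorem api2_sh0 (b : ℕ → ℕ) : sh 0 b = b := by
  funext j
  simp [sh]

theorem api2_sh (s : ℕ) (b : ℕ → ℕ) : sh 1 (sh s b) = sh (s + 1) b := by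
  funext j
  simp only [sh]
  split_ifs
  · congr 1
    omega
  all_goals first | rfl | omega

/-- Splitting off the first coordinate. -/
def api2_e (W : Type) [TopologicalSpace W] (s : ℕ) :
    W × (Fin (s + 1) → ℝ) ≃ₜ (W × (Fin s → ℝ)) × ℝ where
  toFun p := ((p.1, fun i => p.2 i.succ), p.2 0)
  invFun q := (q.1.1, Fin.cons q.2 q.1.2)
  left_inv p := Prod.ext rfl (Fin.cons_self_tail p.2)
  right_inv _ := rfl
  continuous_toFun := by fun_prop
  continuous_invFun := by fun_prop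

theorem ht_pi (hτ : Continuous τ) (s : ℕ) (h : ℕ → ℕ) :
    HT (W × (Fin s → ℝ)) (fun p => τ p.1) h ↔ ∃ b, HT W τ b ∧ h = sh s b := by
  induction s generalizing h with
  | zero =>
    rw [ht_homeo (Homeomorph.prodUnique W (Fin 0 → ℝ)) (τ := fun p => τ p.1) hτ
      (κ := fun _ => 1) continuous_const (fun x => by simp) h]
    simp only [api2_sh0]
    exact ⟨fun h' => ⟨h, h', rfl⟩, fun ⟨b, hb, e⟩ => e ▸ hb⟩
  | succ s ih =>
    rw [ht_homeo (api2_e W s) (τ := fun p => τ p.1) (τ' := fun q => τ q.1.1) (by fun_prop)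
      (κ := fun _ => 1) continuous_const (fun x => by rw [one_pow, mul_one]; rfl) h,
      ht_real (W := W × (Fin s → ℝ)) (τ := fun p => τ p.1) (by fun_prop) h]
    constructor
    · rintro ⟨b, hb, rfl⟩
      obtain ⟨b', hb', rfl⟩ := (ih b).1 hb
      exact ⟨b', hb', api2_sh s b'⟩
    · rintro ⟨b, hb, rfl⟩
      exact ⟨sh s b, (ih _).2 ⟨b, hb, rfl⟩, (api2_sh s b).symm⟩

theorem ht_circle (hτ : Continuous τ) (h : ℕ → ℕ) :
    HT (W × Circle) (fun p => τ p.1) h ↔ ∃ b, HT W τ b ∧ ∀ n, h n = b n + prev b n := by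
  obtain ⟨c, hc, hr⟩ := api2_circ
  obtain ⟨h1, h2, h3⟩ := api2_cut (W := W) hc hr
  have hp : ∀ (b : ℕ → ℕ) n, sh 1 b n = prev b n := fun b n => by
    cases n <;> simp [sh, prev]
  refine (ht_split (τ := fun p : W × Circle => τ p.1) (hτ.comp continuous_fst) h1 h2 h3
    isProperMap_fst_of_compactSpace (fun _ => rfl) (fun _ => rfl) h).trans ?_
  constructor
  · rintro ⟨f, g, hf, hg, rfl⟩
    obtain ⟨b, hb, rfl⟩ := (ht_real hτ f).1 hf
    obtain rfl : g = b := HT.unique hg hb
    exact ⟨g, hb, fun n => by rw [Pi.add_apply, hp, add_comm]⟩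
  · rintro ⟨b, hb, e⟩
    exact ⟨sh 1 b, b, (ht_real hτ _).2 ⟨b, hb, rfl⟩, hb, funext fun n => by
      rw [e, Pi.add_apply, hp, add_comm]⟩

theorem ht_cell {n : ℕ} {σ : (Fin n → ℝ) → Circle} (hσ : Continuous σ) :
    HT (Fin n → ℝ) σ (Pi.single n 1) := by
  obtain ⟨κ, hκ, e⟩ := lift2 (W := Fin n → ℝ) ⟨fun p => σ ((p.1 : ℝ) • p.2) / σ 0, by fun_prop⟩
    (fun x => by simp)
  have e' : ∀ x, σ x = 1 * (κ x * rt (σ 0)) ^ 2 := fun x => by
    rw [one_mul, mul_pow, rt_sq, ← e]
    simp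
  rw [ht_homeo (Homeomorph.uniqueProd Unit (Fin n → ℝ)).symm
    (τ' := fun p => (1 : Unit → Circle) p.1) continuous_const (κ := fun x => κ x * rt (σ 0))
    (by fun_prop) e']
  refine (ht_pi (W := Unit) (τ := 1) continuous_const n _).2 ⟨Pi.single 0 1, ht_unit, ?_⟩
  funext j
  simp only [sh, Pi.single_apply]
  split_ifs <;> omega

theorem ht_pos [CompactSpace W] [Nonempty W] {f : ℕ → ℕ} (h : HT W 1 f) : 1 ≤ f 0 := by
  obtain ⟨w⟩ := ‹Nonempty W›
  have := ht_retract (p := fun _ : W => ()) (s := fun _ : Unit => w)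
    continuous_const.isProperMap continuous_const.isProperMap (fun _ => rfl) h ht_unit 0
  simpa using this

end Vale.Agent.P265.L
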