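import Mathlib

/-! P265 part T: compactly supported Alexander-Spanier cohomology with coefficients in a rank one
local system given by a transport function `T`. A cochain of degree `p` is a function of a point
and a list; only lists of length `p` matter. DO NOT EDIT (ask helper98). -/

open Set Topology Filter

noncomputable section
namespace Vale.Agent.P265.L

/-- The coefficient field. -/
abbrev F3 : Type := ZMod 3

/-- Cochains. -/
abbrev Co (W : Type) : Type := W → List W → F3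

variable {W W' : Type}

/-- Untwisted coboundary on functions of lists. -/
def d0 : (List W → F3) → List W → F3
  | _, [] => 0
  | ψ, x :: l => ψ l - d0 (fun m => ψ (x :: m)) l

/-- Twisted coboundary. -/
def dT (T : W → W → F3) (φ : Co W) : Co W
  | _, [] => 0
  | x, y :: l => T x y * φ y l - d0 (φ x) (y :: l)

/-- Prism operator on functions of lists. -/
def pr (r : W → W) : (List W → F3) → List W → F3
  | _, [] => 0
  | ψ, x :: l => ψ (x :: r x :: l.map r) - pr r (fun m => ψ (x :: m)) l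

/-- Prism operator on cochains. -/
def Dp (r : W → W) (φ : Co W) : Co W := fun x l => φ x (r x :: l.map r) - pr r (φ x) l

/-- Pull back of cochains with a gauge factor. -/
def pc (f : W → W') (κ : W → F3) (φ : Co W') : Co W := fun x l => κ x * φ (f x) (l.map f)

/-- `φ` vanishes on tuples of degree `p` with entries in `U`. -/
def Van (p : ℕ) (φ : Co W) (U : Set W) : Prop :=
  ∀ x l, l.length = p → x ∈ U → (∀ y ∈ l, y ∈ U) → φ x l = 0

/-- Previous value. -/
def prev (q : ℕ → ℕ) : ℕ → ℕ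
  | 0 => 0
  | n + 1 => q n

/-- Shift by `s`. -/
def sh (s : ℕ) (b : ℕ → ℕ) (j : ℕ) : ℕ := if s ≤ j then b (j - s) else 0

variable [TopologicalSpace W] [TopologicalSpace W']

/-- Locally zero at `a`. -/
def LZ (p : ℕ) (φ : Co W) (a : W) : Prop := ∃ U ∈ 𝓝 a, Van p φ U

/-- Compact support. -/
def CS (p : ℕ) (φ : Co W) : Prop := ∃ K, IsCompact K ∧ ∀ a ∉ K, LZ p φ a

/-- Local system. -/
def LocSys (T : W → W → F3) : Prop :=
  ∀ a, ∃ U ∈ 𝓝 a, ∀ x ∈ U, T x x = 1 ∧ ∀ y ∈ U, ∀ z ∈ U, T x y * T y z = T x z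

/-- `κ` intertwines `T` and the pull back of `T'`. -/
def Gauge (f : W → W') (κ : W → F3) (T : W → W → F3) (T' : W' → W' → F3) : Prop :=
  ∀ a, ∃ U ∈ 𝓝 a, ∀ x ∈ U, ∀ y ∈ U, T x y * κ y = κ x * T' (f x) (f y)

omit [TopologicalSpace W] in
theorem d0_add (ψ ψ' : List W → F3) (l : List W) : d0 (ψ + ψ') l = d0 ψ l + d0 ψ' l := by
  induction l generalizing ψ ψ' with
  | nil => simp [d0]
  | cons x l ih =>
    have := ih (fun m => ψ (x :: m)) (fun m => ψ' (x :: m))
    simp only [d0, Pi.add_apply]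
    rw [show (fun m => ψ (x :: m) + ψ' (x :: m)) =
      (fun m => ψ (x :: m)) + fun m => ψ' (x :: m) from rfl, this]
    ring

omit [TopologicalSpace W] in
theorem d0_smul (c : F3) (ψ : List W → F3) (l : List W) : d0 (c • ψ) l = c * d0 ψ l := by
  induction l generalizing ψ with
  | nil => simp [d0]
  | cons x l ih =>
    have := ih (fun m => ψ (x :: m))
    simp only [d0, Pi.smul_apply, smul_eq_mul]
    rw [show (fun m => c * ψ (x :: m)) = c • fun m => ψ (x :: m) from rfl, this]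
    ring

omit [TopologicalSpace W] in
theorem dT_add (T : W → W → F3) (φ ψ : Co W) : dT T (φ + ψ) = dT T φ + dT T ψ := by
  funext x l
  cases l with
  | nil => simp [dT]
  | cons y l => simp only [dT, Pi.add_apply, d0_add]; ring

omit [TopologicalSpace W] in
theorem dT_smul (T : W → W → F3) (c : F3) (φ : Co W) : dT T (c • φ) = c • dT T φ := by
  funext x l
  cases l with
  | nil => simp [dT]
  | cons y l => simp only [dT, Pi.smul_apply, d0_smul, smul_eq_mul]; ring

omit [TopologicalSpace W] in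
theorem dT_zero (T : W → W → F3) : dT T 0 = 0 := by
  simpa using dT_smul T 0 0

theorem LZ.zero (p : ℕ) (a : W) : LZ p (0 : Co W) a := ⟨univ, univ_mem, fun _ _ _ _ _ => rfl⟩

theorem LZ.add {p : ℕ} {φ ψ : Co W} {a : W} (h : LZ p φ a) (h' : LZ p ψ a) : LZ p (φ + ψ) a := by
  obtain ⟨U, hU, h⟩ := h
  obtain ⟨V, hV, h'⟩ := h'
  refine ⟨U ∩ V, inter_mem hU hV, fun x l hl hx hy => ?_⟩
  simp [h x l hl hx.1 fun y z => (hy y z).1, h' x l hl hx.2 fun y z => (hy y z).2]

theorem LZ.smul {p : ℕ} {φ : Co W} {a : W} (c : F3) (h : LZ p φ a) : LZ p (c • φ) a := by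
  obtain ⟨U, hU, h⟩ := h
  exact ⟨U, hU, fun x l hl hx hy => by simp [h x l hl hx hy]⟩

theorem CS.zero (p : ℕ) : CS p (0 : Co W) := ⟨∅, isCompact_empty, fun a _ => LZ.zero p a⟩

theorem CS.add {p : ℕ} {φ ψ : Co W} (h : CS p φ) (h' : CS p ψ) : CS p (φ + ψ) := by
  obtain ⟨K, hK, h⟩ := h
  obtain ⟨L, hL, h'⟩ := h'
  exact ⟨K ∪ L, hK.union hL, fun a ha =>
    (h a fun z => ha (Or.inl z)).add (h' a fun z => ha (Or.inr z))⟩

theorem CS.smul {p : ℕ} {φ : Co W} (c : F3) (h : CS p φ) : CS p (c • φ) := by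
  obtain ⟨K, hK, h⟩ := h
  exact ⟨K, hK, fun a ha => (h a ha).smul c⟩

/-- Cocycles. -/
def Zc (T : W → W → F3) (p : ℕ) : Submodule F3 (Co W) where
  carrier := {φ | CS p φ ∧ ∀ a, LZ (p + 1) (dT T φ) a}
  zero_mem' := ⟨CS.zero p, fun a => by rw [dT_zero]; exact LZ.zero _ a⟩
  add_mem' := fun h h' => ⟨h.1.add h'.1, fun a => by rw [dT_add]; exact (h.2 a).add (h'.2 a)⟩
  smul_mem' := fun c _ h => ⟨h.1.smul c, fun a => by rw [dT_smul]; exact (h.2 a).smul c⟩

/-- Coboundaries (modulo locally zero cochains). -/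
def Bc (T : W → W → F3) (p : ℕ) : Submodule F3 (Co W) where
  carrier := {φ | ∃ ψ, (∀ q, q + 1 = p → CS q ψ) ∧ ∀ a, LZ p (φ - dT T ψ) a}
  zero_mem' := ⟨0, fun q _ => CS.zero q, fun a => by rw [dT_zero, sub_zero]; exact LZ.zero _ a⟩
  add_mem' := by
    rintro φ φ' ⟨ψ, h1, h2⟩ ⟨ψ', h1', h2'⟩
    refine ⟨ψ + ψ', fun q hq => (h1 q hq).add (h1' q hq), fun a => ?_⟩
    rw [dT_add, add_sub_add_comm]
    exact (h2 a).add (h2' a)
  smul_mem' := by
    rintro c φ ⟨ψ, h1, h2⟩
    refine ⟨c • ψ, fun q hq => (h1 q hq).smul c, fun a => ?_⟩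
    rw [dT_smul, ← smul_sub]
    exact (h2 a).smul c

/-- Cohomology. -/
abbrev Hc (T : W → W → F3) (p : ℕ) : Type := Zc T p ⧸ (Bc T p).submoduleOf (Zc T p)

/-- The Betti numbers are finite and given by `f`. -/
def HB (T : W → W → F3) (f : ℕ → ℕ) : Prop :=
  ∀ n, FiniteDimensional F3 (Hc T n) ∧ Module.finrank F3 (Hc T n) = f n

/-- `L` is the map on cohomology induced by `pc f κ`. -/
def IsPull (f : W → W') (κ : W → F3) {T : W → W → F3} {T' : W' → W' → F3} {n : ℕ}
    (L : Hc T' n →ₗ[F3] Hc T n) : Prop :=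
  ∀ φ : Zc T' n, ∃ h : pc f κ φ.1 ∈ Zc T n,
    L (Submodule.Quotient.mk φ) = Submodule.Quotient.mk ⟨_, h⟩

/-- A square root on the circle. -/
def rt (z : Circle) : Circle := Circle.exp (Complex.arg z / 2)

/-- The sign of the real part. -/
def sn (z : Circle) : F3 := if 0 < (z : ℂ).re then 1 else -1

/-- The sign local system (holonomy minus one around the circle) pulled back by `τ`. -/
def Tt {W : Type} (τ : W → Circle) (x y : W) : F3 := sn (rt (τ x) / rt (τ y))

/-- Betti numbers of `W` with coefficients in the local system of `τ`. -/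
def HT (W : Type) [TopologicalSpace W] (τ : W → Circle) (f : ℕ → ℕ) : Prop := HB (Tt τ) f

end Vale.Agent.P265.L
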