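import Vale.Agent.P265.T.Defs

/-! Part T: algebra of cochains. PLAN. All list identities by induction on the list generalizing the function
(d0_add, d0_smul; fun m => d0 ψ (x :: m) is ψ - d0 (fun m => ψ (x :: m)) by rfl/funext). List level prism identity first:
d0 (pr r ψ) l + pr r (d0 ψ) l = ψ (l.map r) - ψ l. For dT_dT use d0_d0 at (y :: l). Locality: first for d0 and pr on functions of lists
(if ψ vanishes on lists of length n in U then d0 ψ vanishes on lists of length n+1 in U). -/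

open Set Topology Filter

noncomputable section
namespace Vale.Agent.P265.L

variable {W W' : Type}

theorem alg_d0_sub (ψ ψ' : List W → F3) (l : List W) : d0 (ψ - ψ') l = d0 ψ l - d0 ψ' l := by
  rw [sub_eq_add_neg, ← neg_one_smul F3 ψ', d0_add, d0_smul]
  ring

theorem alg_d0_map (f : W → W') (ψ : List W' → F3) (l : List W) :
    d0 (fun m => ψ (m.map f)) l = d0 ψ (l.map f) := by
  induction l generalizing ψ with
  | nil => rfl
  | cons x l ih =>
    have := ih fun m => ψ (f x :: m)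
    simp only [d0, List.map_cons]
    rw [this]

theorem alg_pr_lin (r : W → W) (c : F3) (ψ ψ' : List W → F3) (l : List W) :
    pr r (fun m => c * ψ m - ψ' m) l = c * pr r ψ l - pr r ψ' l := by
  induction l generalizing ψ ψ' with
  | nil => simp [pr]
  | cons x l ih =>
    simp only [pr]
    rw [ih (fun m => ψ (x :: m)) fun m => ψ' (x :: m)]
    ring

theorem alg_d0_lin (c : F3) (ψ ψ' : List W → F3) (l : List W) :
    d0 (fun m => c * ψ m - ψ' m) l = c * d0 ψ l - d0 ψ' l := by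
  rw [← d0_smul, ← alg_d0_sub]
  rfl

theorem alg_prism (r : W → W) (ψ : List W → F3) (l : List W) :
    d0 (pr r ψ) l + pr r (d0 ψ) l = ψ (l.map r) - ψ l := by
  induction l generalizing ψ with
  | nil => simp [d0, pr]
  | cons x l ih =>
    have h1 := ih fun m => ψ (x :: m)
    have h2 := alg_d0_lin 1 (fun m => ψ (x :: r x :: m.map r)) (pr r fun m => ψ (x :: m)) l
    have h3 := alg_pr_lin r 1 ψ (d0 fun m => ψ (x :: m)) l
    have h4 := alg_d0_map r (fun m => ψ (x :: r x :: m)) l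
    simp only [one_mul] at h2 h3
    simp only [d0, pr, List.map_cons]
    rw [h2, h3, h4]
    linear_combination h1

theorem alg_d0_van {U : Set W} {ψ : List W → F3} {l : List W}
    (h : ∀ m : List W, m.length + 1 = l.length → (∀ y ∈ m, y ∈ U) → ψ m = 0)
    (hl : ∀ y ∈ l, y ∈ U) : d0 ψ l = 0 := by
  induction l generalizing ψ with
  | nil => rfl
  | cons x l ih =>
    obtain ⟨h1, h2⟩ := List.forall_mem_cons.1 hl
    rw [d0, h l rfl h2, ih (fun m hm hU => h (x :: m) (by simp [hm])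
      (List.forall_mem_cons.2 ⟨h1, hU⟩)) h2, sub_zero]

theorem alg_map_mem {U : Set W} {r : W → W} {l : List W} (hl : ∀ y ∈ l, y ∈ U ∧ r y ∈ U) :
    ∀ y ∈ l.map r, y ∈ U := List.forall_mem_map.2 fun y hy => (hl y hy).2

theorem alg_pr_van {U : Set W} {r : W → W} {ψ : List W → F3} {l : List W}
    (h : ∀ m : List W, m.length = l.length + 1 → (∀ y ∈ m, y ∈ U) → ψ m = 0)
    (hl : ∀ y ∈ l, y ∈ U ∧ r y ∈ U) : pr r ψ l = 0 := by
  induction l generalizing ψ with
  | nil => rfl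
  | cons x l ih =>
    obtain ⟨h1, h2⟩ := List.forall_mem_cons.1 hl
    rw [pr, h _ (by simp) (List.forall_mem_cons.2 ⟨h1.1, List.forall_mem_cons.2
      ⟨h1.2, alg_map_mem h2⟩⟩), ih (fun m hm hU => h (x :: m) (by simp [hm])
      (List.forall_mem_cons.2 ⟨h1.1, hU⟩)) h2, sub_zero]

theorem d0_d0 (ψ : List W → F3) (l : List W) : d0 (d0 ψ) l = 0 := by
  induction l generalizing ψ with
  | nil => rfl
  | cons x l ih =>
    have h := alg_d0_lin 1 ψ (d0 fun m => ψ (x :: m)) l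
    simp only [one_mul] at h
    simp only [d0]
    rw [h, ih]
    ring

theorem dT_sub (T : W → W → F3) (φ ψ : Co W) : dT T (φ - ψ) = dT T φ - dT T ψ := by
  rw [sub_eq_add_neg, ← neg_one_smul F3 ψ, dT_add, dT_smul, neg_one_smul, sub_eq_add_neg]

theorem dT_dT_one (T : W → W → F3) (φ : Co W) (x y : W) : dT T (dT T φ) x [y] = 0 := by
  simp [dT, d0]

theorem dT_dT (T : W → W → F3) (φ : Co W) (x y z : W) (l : List W) :
    dT T (dT T φ) x (y :: z :: l) = (T x y * T y z - T x z) * φ z l := by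
  have h1 := d0_d0 (φ x) (y :: z :: l)
  have h2 := alg_d0_lin (T x y) (φ y) (fun m => d0 (φ x) (y :: m)) (z :: l)
  rw [d0] at h1
  rw [dT, d0]
  simp only [dT]
  rw [h2]
  linear_combination h1

theorem prism (T : W → W → F3) (r : W → W) (φ : Co W) (x : W) (l : List W) :
    dT T (Dp r φ) x l + Dp r (dT T φ) x l = T x (r x) * φ (r x) (l.map r) - φ x l := by
  cases l with
  | nil => simp [dT, Dp, d0, pr]
  | cons y l =>
    have h1 := alg_prism r (φ x) (y :: l)
    have h2 := alg_d0_lin 1 (fun m => φ x (r x :: m.map r)) (pr r (φ x)) (y :: l)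
    have h3 := alg_pr_lin r (T x y) (φ y) (fun m => d0 (φ x) (y :: m)) l
    have h4 := alg_d0_map r (fun m => φ x (r x :: m)) (y :: l)
    have h5 : d0 (φ x) (r x :: (y :: l).map r) =
      φ x ((y :: l).map r) - d0 (fun m => φ x (r x :: m)) ((y :: l).map r) := rfl
    have h6 : Dp r φ x = fun m => 1 * φ x (r x :: m.map r) - pr r (φ x) m := by
      funext m
      rw [one_mul, Dp]
    rw [pr] at h1
    rw [dT, h6, h2, h4]
    simp only [Dp, pr, dT]
    rw [h3, h5]
    linear_combination h1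

theorem Van.mono {p : ℕ} {φ : Co W} {U V : Set W} (h : Van p φ U) (hV : V ⊆ U) : Van p φ V := fun x l hl hx hy => h x l hl (hV hx) fun y z => hV (hy y z)

theorem Van.dT {p : ℕ} {φ : Co W} {U : Set W} (T : W → W → F3) (h : Van p φ U) :
    Van (p + 1) (dT T φ) U := by
  intro x l hl hx hy
  cases l with
  | nil => rfl
  | cons y l =>
    obtain ⟨h1, h2⟩ := List.forall_mem_cons.1 hy
    rw [L.dT, h y l (by simpa using hl) h1 h2,
      alg_d0_van (fun m hm hU => h x m (by omega) hx hU) hy, mul_zero, sub_zero]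

theorem Van.Dp {p : ℕ} {φ : Co W} {U V : Set W} {r : W → W} (h : Van (p + 1) φ U) (hV : V ⊆ U)
    (hr : MapsTo r V U) : Van p (Dp r φ) V := by
  intro x l hl hx hy
  have h1 : ∀ y ∈ l, y ∈ U ∧ r y ∈ U := fun y z => ⟨hV (hy y z), hr (hy y z)⟩
  rw [L.Dp, h x _ (by simpa using hl) (hV hx) (List.forall_mem_cons.2 ⟨hr hx, alg_map_mem h1⟩),
    alg_pr_van (fun m hm hU => h x m (by omega) (hV hx) hU) h1, sub_zero]

theorem dT_pc {f : W → W'} {κ : W → F3} {T : W → W → F3} {T' : W' → W' → F3} (φ : Co W') (x y : W)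
    (l : List W) (h : T x y * κ y = κ x * T' (f x) (f y)) :
    dT T (pc f κ φ) x (y :: l) = pc f κ (dT T' φ) x (y :: l) := by
  have h1 := d0_smul (κ x) (fun m => φ (f x) (m.map f)) (y :: l)
  have h2 : pc f κ φ x = κ x • fun m => φ (f x) (m.map f) := rfl
  rw [dT, h2, h1, alg_d0_map]
  simp only [pc, List.map_cons, dT]
  linear_combination φ (f y) (l.map f) * h

open Classical in
/-- Cut off outside `N`. -/
def cut (N : Set W) (φ : Co W) : Co W := fun x l => if x ∈ N ∧ ∀ y ∈ l, y ∈ N then φ x l else 0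

variable [TopologicalSpace W]

theorem LZ.neg {p : ℕ} {φ : Co W} {a : W} (h : LZ p φ a) : LZ p (-φ) a := by
  simpa using h.smul (-1)

theorem LZ.sub {p : ℕ} {φ ψ : Co W} {a : W} (h : LZ p φ a) (h' : LZ p ψ a) : LZ p (φ - ψ) a := by
  rw [sub_eq_add_neg]
  exact h.add h'.neg

theorem CS.neg {p : ℕ} {φ : Co W} (h : CS p φ) : CS p (-φ) := by
  simpa using h.smul (-1)

theorem CS.sub {p : ℕ} {φ ψ : Co W} (h : CS p φ) (h' : CS p ψ) : CS p (φ - ψ) := by
  rw [sub_eq_add_neg]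
  exact h.add h'.neg

theorem CS.of_lz {p : ℕ} {φ : Co W} (h : ∀ a, LZ p φ a) : CS p φ := ⟨∅, isCompact_empty, fun a _ => h a⟩

theorem isOpen_lz (p : ℕ) (φ : Co W) : IsOpen {a | LZ p φ a} := by
  refine isOpen_iff_mem_nhds.2 fun a ⟨U, hU, h⟩ => ?_
  filter_upwards [eventually_mem_nhds_iff.2 hU] with b hb using ⟨U, hb, h⟩

theorem LZ.dT {p : ℕ} {φ : Co W} {a : W} (T : W → W → F3) (h : LZ p φ a) :
    LZ (p + 1) (dT T φ) a := h.imp fun _ hU => ⟨hU.1, hU.2.dT T⟩

theorem CS.dT {p : ℕ} {φ : Co W} (T : W → W → F3) (h : CS p φ) : CS (p + 1) (dT T φ) :=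
  h.imp fun _ hK => ⟨hK.1, fun a ha => (hK.2 a ha).dT T⟩

theorem lz_zero_dT (T : W → W → F3) (φ : Co W) (a : W) : LZ 0 (dT T φ) a := by
  refine ⟨univ, univ_mem, fun x l hl _ _ => ?_⟩
  rw [List.length_eq_zero_iff.1 hl]
  rfl

theorem LocSys.lz_dT_dT {T : W → W → F3} (hT : LocSys T) (p : ℕ) (φ : Co W) (a : W) :
    LZ p (dT T (dT T φ)) a := by
  obtain ⟨U, hU, h⟩ := hT a
  refine ⟨U, hU, fun x l _ hx hy => ?_⟩
  match l, hy with
  | [], _ => rfl
  | [y], _ => exact dT_dT_one T φ x y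
  | y :: z :: l, hy =>
    rw [dT_dT, (h x hx).2 y (hy y (by simp)) z (hy z (by simp)), sub_self, zero_mul]

theorem mem_Bc_of_lz {T : W → W → F3} {p : ℕ} {φ : Co W} (h : ∀ a, LZ p φ a) : φ ∈ Bc T p :=
  ⟨0, fun q _ => CS.zero q, fun a => by rw [dT_zero, sub_zero]; exact h a⟩

theorem LocSys.Bc_le_Zc {T : W → W → F3} (hT : LocSys T) (p : ℕ) : Bc T p ≤ Zc T p := by
  rintro φ ⟨ψ, h1, h2⟩
  have h3 : CS p (dT T ψ) := by
    cases p with
    | zero => exact CS.of_lz (lz_zero_dT T ψ)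
    | succ q => exact (h1 q rfl).dT T
  refine ⟨by simpa using (CS.of_lz h2).add h3, fun a => ?_⟩
  have h4 := ((h2 a).dT T).add (hT.lz_dT_dT (p + 1) ψ a)
  rwa [dT_sub, sub_add_cancel] at h4

theorem mk_eq_zero_iff {T : W → W → F3} {p : ℕ} (φ : Zc T p) :
    (Submodule.Quotient.mk φ : Hc T p) = 0 ↔ φ.1 ∈ Bc T p :=
  Submodule.Quotient.mk_eq_zero _

theorem mk_eq_mk_iff {T : W → W → F3} {p : ℕ} (φ ψ : Zc T p) :
    (Submodule.Quotient.mk φ : Hc T p) = Submodule.Quotient.mk ψ ↔ φ.1 - ψ.1 ∈ Bc T p :=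
  Submodule.Quotient.eq _

theorem lz_sub_cut {p : ℕ} {φ : Co W} {N : Set W} {a : W} (h : N ∈ 𝓝 a) :
    LZ p (φ - cut N φ) a := by
  refine ⟨N, h, fun x l _ hx hy => ?_⟩
  simp only [Pi.sub_apply, cut, if_pos (And.intro hx hy), sub_self]

theorem lz_cut_of_compl {p : ℕ} {φ : Co W} {N : Set W} {a : W} (h : Nᶜ ∈ 𝓝 a) :
    LZ p (cut N φ) a :=
  ⟨Nᶜ, h, fun _ _ _ hx _ => if_neg fun c => hx c.1⟩

theorem LZ.cut {p : ℕ} {φ : Co W} {a : W} (N : Set W) (h : LZ p φ a) : LZ p (cut N φ) a := by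
  obtain ⟨U, hU, h⟩ := h
  refine ⟨U, hU, fun x l hl hx hy => ?_⟩
  simp only [L.cut, h x l hl hx hy, ite_self]

theorem hb_zero_iff {T : W → W → F3} : HB T 0 ↔ ∀ p, Zc T p ≤ Bc T p := by
  constructor
  · intro h p φ hφ
    have := (h p).1
    have := Module.finrank_zero_iff.1 (h p).2
    exact (mk_eq_zero_iff ⟨φ, hφ⟩).1 (Subsingleton.elim _ _)
  · intro h p
    have : Subsingleton (Hc T p) := by
      refine subsingleton_of_forall_eq 0 fun c => ?_
      obtain ⟨φ, rfl⟩ := Submodule.Quotient.mk_surjective _ c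
      exact (mk_eq_zero_iff φ).2 (h p φ.2)
    exact ⟨inferInstance, Module.finrank_zero_of_subsingleton⟩

end Vale.Agent.P265.L
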