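import Vale.Agent.P265.T.Defs

/-! Part T: linear algebra of a long exact sequence. PLAN. Function.Exact.linearMap_ker_eq, LinearMap.finrank_range_add_finrank_ker; r n = finrank (range (δ n)).
Finiteness: a space with a finite dimensional kernel and range of a linear map is finite dimensional (Module.Finite.of_exact or Submodule.fg_of_fg_map_of_fg_inf_ker). -/

open Set Topology Filter

noncomputable section
namespace Vale.Agent.P265.L

variable {U W K : ℕ → Type} [∀ n, AddCommGroup (U n)] [∀ n, Module F3 (U n)]
  [∀ n, AddCommGroup (W n)] [∀ n, Module F3 (W n)] [∀ n, AddCommGroup (K n)] [∀ n, Module F3 (K n)]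
  {e : ∀ n, U n →ₗ[F3] W n} {res : ∀ n, W n →ₗ[F3] K n} {δ : ∀ n, K n →ₗ[F3] U (n + 1)}

theorem rank_mid {A B C : Type} [AddCommGroup A] [Module F3 A] [AddCommGroup B] [Module F3 B]
    [AddCommGroup C] [Module F3 C] {f : A →ₗ[F3] B} {g : B →ₗ[F3] C} (h : Function.Exact f g)
    (hA : FiniteDimensional F3 A) (hC : FiniteDimensional F3 C) : FiniteDimensional F3 B := by
  have : Fact (Nat.Prime 3) := ⟨Nat.prime_three⟩
  refine Module.Finite.of_exact (f := f) (g := g.rangeRestrict) ?_ g.surjective_rangeRestrict
  intro b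
  rw [← h b, Subtype.ext_iff]
  rfl

theorem rank_add {A B C : Type} [AddCommGroup A] [Module F3 A] [AddCommGroup B] [Module F3 B]
    [AddCommGroup C] [Module F3 C] {f : A →ₗ[F3] B} {g : B →ₗ[F3] C} (h : Function.Exact f g)
    (hB : FiniteDimensional F3 B) : Module.finrank F3 B =
      Module.finrank F3 (LinearMap.range g) + Module.finrank F3 (LinearMap.range f) := by
  have : Fact (Nat.Prime 3) := ⟨Nat.prime_three⟩
  rw [← h.linearMap_ker_eq]
  exact (LinearMap.finrank_range_add_finrank_ker g).symm

theorem rank_finW (h : ∀ n, Function.Exact (e n) (res n) ∧ Function.Exact (res n) (δ n) ∧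
      Function.Exact (δ n) (e (n + 1))) (hU : ∀ n, FiniteDimensional F3 (U n))
    (hK : ∀ n, FiniteDimensional F3 (K n)) (n : ℕ) : FiniteDimensional F3 (W n) := by
  exact rank_mid (h n).1 (hU n) (hK n)

theorem rank_finK (h : ∀ n, Function.Exact (e n) (res n) ∧ Function.Exact (res n) (δ n) ∧
      Function.Exact (δ n) (e (n + 1))) (hU : ∀ n, FiniteDimensional F3 (U n))
    (hW : ∀ n, FiniteDimensional F3 (W n)) (n : ℕ) : FiniteDimensional F3 (K n) := by
  exact rank_mid (h n).2.1 (hW n) (hU (n + 1))

theorem rank_finU (h0 : Function.Injective (e 0))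
    (h : ∀ n, Function.Exact (e n) (res n) ∧ Function.Exact (res n) (δ n) ∧
      Function.Exact (δ n) (e (n + 1))) (hW : ∀ n, FiniteDimensional F3 (W n))
    (hK : ∀ n, FiniteDimensional F3 (K n)) (n : ℕ) : FiniteDimensional F3 (U n) := by
  cases n with
  | zero =>
    have := hW 0
    exact Module.Finite.of_injective (e 0) h0
  | succ n => exact rank_mid (h n).2.2 (hK n) (hW (n + 1))

theorem rank_les (h0 : Function.Injective (e 0))
    (h : ∀ n, Function.Exact (e n) (res n) ∧ Function.Exact (res n) (δ n) ∧
      Function.Exact (δ n) (e (n + 1))) (hU : ∀ n, FiniteDimensional F3 (U n))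
    (hW : ∀ n, FiniteDimensional F3 (W n)) (hK : ∀ n, FiniteDimensional F3 (K n)) :
    ∃ r : ℕ → ℕ, ∀ n, Module.finrank F3 (U n) + Module.finrank F3 (K n) =
        Module.finrank F3 (W n) + r n + prev r n ∧ r n ≤ Module.finrank F3 (K n) ∧
      r n ≤ Module.finrank F3 (U (n + 1)) ∧ (Function.Surjective (res n) → r n = 0) := by
  have : Fact (Nat.Prime 3) := ⟨Nat.prime_three⟩
  refine ⟨fun n => Module.finrank F3 (LinearMap.range (δ n)), fun n => ⟨?_, ?_, ?_, fun hs => ?_⟩⟩
  · have k1 := rank_add (h n).1 (hW n)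
    have k2 := rank_add (h n).2.1 (hK n)
    have k3 : Module.finrank F3 (U n) = Module.finrank F3 (LinearMap.range (e n)) +
        prev (fun n => Module.finrank F3 (LinearMap.range (δ n))) n := by
      cases n with
      | zero => exact (LinearMap.finrank_range_of_inj h0).symm
      | succ n => exact rank_add (h n).2.2 (hU (n + 1))
    beta_reduce
    omega
  · have := hK n
    exact LinearMap.finrank_range_le (δ n)
  · have := hU (n + 1)
    exact Submodule.finrank_le _
  · have : LinearMap.range (δ n) = ⊥ := by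
      rw [LinearMap.range_eq_bot]
      ext k
      exact ((h n).2.1 k).2 (hs k)
    beta_reduce
    rw [this, finrank_bot]

end Vale.Agent.P265.L
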