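import Vale.Agent.P265.T.Les
import Vale.Agent.P265.T.Rank
import Vale.Agent.P265.T.Tau

/-! Part T: numerical consequences of the long exact sequence. PLAN. les with locSys_Tt (Tt (τ ∘ j) is fun x y => Tt τ (j x) (j y) by rfl), rank_fin*, rank_les, then omega
(cases on n for prev and sh). ht_split: res n is onto because pulling back along p gives a section (exists_pull, IsPull.comp, IsPull.eq_smul; gauge is trivial since τ = τ ∘ i ∘ p pointwise).
ht_clopen: res n is onto; e.g. extend a cocycle of K by zero (ext_closed or ext_open for the open embedding i, then cut to range i), or apply les to the swapped pair: e of the swapped pair is a section. -/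

open Set Topology Filter

noncomputable section
namespace Vale.Agent.P265.L

variable {W U K : Type} [MetricSpace W] [LocallyCompactSpace W] [TopologicalSpace U]
  [TopologicalSpace K] {τ : W → Circle} {j : U → W} {i : K → W}

theorem api_les (hτ : Continuous τ) (hj : IsOpenEmbedding j) (hi : IsClosedEmbedding i)
    (hc : range i = (range j)ᶜ) :
    ∃ res : ∀ n, Hc (Tt τ) n →ₗ[F3] Hc (Tt (τ ∘ i)) n, (∀ n, IsPull i 1 (res n)) ∧
      ((∀ n, FiniteDimensional F3 (Hc (Tt (τ ∘ j)) n)) →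
        (∀ n, FiniteDimensional F3 (Hc (Tt (τ ∘ i)) n)) →
        ∀ n, FiniteDimensional F3 (Hc (Tt τ) n)) ∧
      ((∀ n, FiniteDimensional F3 (Hc (Tt (τ ∘ j)) n)) →
        (∀ n, FiniteDimensional F3 (Hc (Tt τ) n)) →
        ∀ n, FiniteDimensional F3 (Hc (Tt (τ ∘ i)) n)) ∧
      ((∀ n, FiniteDimensional F3 (Hc (Tt τ) n)) →
        (∀ n, FiniteDimensional F3 (Hc (Tt (τ ∘ i)) n)) →
        ∀ n, FiniteDimensional F3 (Hc (Tt (τ ∘ j)) n)) ∧
      ((∀ n, FiniteDimensional F3 (Hc (Tt (τ ∘ j)) n)) →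
        (∀ n, FiniteDimensional F3 (Hc (Tt τ) n)) →
        (∀ n, FiniteDimensional F3 (Hc (Tt (τ ∘ i)) n)) →
        ∃ r : ℕ → ℕ, ∀ n, Module.finrank F3 (Hc (Tt (τ ∘ j)) n) +
          Module.finrank F3 (Hc (Tt (τ ∘ i)) n) =
          Module.finrank F3 (Hc (Tt τ) n) + r n + prev r n ∧
          r n ≤ Module.finrank F3 (Hc (Tt (τ ∘ i)) n) ∧
          r n ≤ Module.finrank F3 (Hc (Tt (τ ∘ j)) (n + 1)) ∧
          (Function.Surjective (res n) → r n = 0)) := by
  obtain ⟨e, res, δ, hp, h0, h⟩ := les (locSys_Tt hτ) hj hi hc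
  exact ⟨res, hp, fun hU hK => rank_finW h hU hK, fun hU hW => rank_finK h hU hW,
    fun hW hK => rank_finU h0 h hW hK, fun hU hW hK => rank_les h0 h hU hW hK⟩

theorem api_prev {r : ℕ → ℕ} (h : ∀ n, r n = 0) (n : ℕ) : prev r n = 0 := by
  cases n with
  | zero => rfl
  | succ n => exact h n

omit [LocallyCompactSpace W] in
theorem api_onto_split {p : W → K} (hp : IsProperMap p)
    (hpi : ∀ x, p (i x) = x) (hpτ : ∀ x, τ (i (p x)) = τ x) {n : ℕ}
    {res : Hc (Tt τ) n →ₗ[F3] Hc (Tt (τ ∘ i)) n} (hres : IsPull i 1 res) :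
    Function.Surjective res := by
  have hg : Gauge p 1 (Tt τ) (Tt (τ ∘ i)) := fun a =>
    ⟨univ, univ_mem, fun x _ y _ => by simp [Tt, hpτ]⟩
  obtain ⟨L, hL⟩ := exists_pull hp hg n
  have h1 := (hres.comp hL).eq_smul (c := 1) (fun x => hpi x) (fun x => by simp)
  intro c
  refine ⟨L c, ?_⟩
  have := LinearMap.congr_fun h1 c
  simpa using this

theorem api_onto_open (hi' : IsOpenEmbedding i) {n : ℕ}
    {res : Hc (Tt τ) n →ₗ[F3] Hc (Tt (τ ∘ i)) n} (hres : IsPull i 1 res) :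
    Function.Surjective res := by
  obtain ⟨e, -, he⟩ := exists_e hi' (Tt τ) n
  intro c
  obtain ⟨φ, -, h, rfl⟩ := he c
  obtain ⟨h', e'⟩ := hres φ
  exact ⟨_, e'⟩

theorem ht_les (hτ : Continuous τ) (hj : IsOpenEmbedding j) (hi : IsClosedEmbedding i)
    (hc : range i = (range j)ᶜ) {f g : ℕ → ℕ} (hf : HT U (τ ∘ j) f) (hg : HT K (τ ∘ i) g) :
    ∃ h r : ℕ → ℕ, HT W τ h ∧
      ∀ n, f n + g n = h n + r n + prev r n ∧ r n ≤ g n ∧ r n ≤ f (n + 1) := by
  obtain ⟨res, -, hW, -, -, hr⟩ := api_les hτ hj hi hc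
  have hU := fun n => (hf n).1
  have hK := fun n => (hg n).1
  obtain ⟨r, hr⟩ := hr hU (hW hU hK) hK
  refine ⟨fun n => Module.finrank F3 (Hc (Tt τ) n), r, fun n => ⟨hW hU hK n, rfl⟩, fun n => ?_⟩
  have h1 := hr n
  rw [(hf n).2, (hg n).2, (hf (n + 1)).2] at h1
  exact ⟨h1.1, h1.2.1, h1.2.2.1⟩

theorem ht_open0 (hτ : Continuous τ) (hj : IsOpenEmbedding j) (hi : IsClosedEmbedding i)
    (hc : range i = (range j)ᶜ) (hU : HT U (τ ∘ j) 0) (f : ℕ → ℕ) :
    HT W τ f ↔ HT K (τ ∘ i) f := by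
  obtain ⟨res, -, hW, hK, -, hr⟩ := api_les hτ hj hi hc
  have hU' := fun n => (hU n).1
  have key : (∀ n, FiniteDimensional F3 (Hc (Tt τ) n)) →
      (∀ n, FiniteDimensional F3 (Hc (Tt (τ ∘ i)) n)) →
      ∀ n, Module.finrank F3 (Hc (Tt (τ ∘ i)) n) = Module.finrank F3 (Hc (Tt τ) n) := by
    intro h1 h2 n
    obtain ⟨r, hr⟩ := hr hU' h1 h2
    have h0 : ∀ n, r n = 0 := fun n => by
      have := (hr n).2.2.1
      rw [(hU (n + 1)).2] at this
      simpa using this
    have := (hr n).1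
    rw [(hU n).2, h0 n, api_prev h0 n] at this
    simpa using this
  constructor
  · intro h n
    have h1 := fun n => (h n).1
    exact ⟨hK hU' h1 n, (key h1 (hK hU' h1) n).trans (h n).2⟩
  · intro h n
    have h1 := fun n => (h n).1
    exact ⟨hW hU' h1 n, (key (hW hU' h1) h1 n).symm.trans (h n).2⟩

theorem ht_closed0 (hτ : Continuous τ) (hj : IsOpenEmbedding j) (hi : IsClosedEmbedding i)
    (hc : range i = (range j)ᶜ) (hK : HT K (τ ∘ i) 0) (f : ℕ → ℕ) :
    HT W τ f ↔ HT U (τ ∘ j) f := by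
  obtain ⟨res, -, hW, -, hU, hr⟩ := api_les hτ hj hi hc
  have hK' := fun n => (hK n).1
  have key : (∀ n, FiniteDimensional F3 (Hc (Tt τ) n)) →
      (∀ n, FiniteDimensional F3 (Hc (Tt (τ ∘ j)) n)) →
      ∀ n, Module.finrank F3 (Hc (Tt (τ ∘ j)) n) = Module.finrank F3 (Hc (Tt τ) n) := by
    intro h1 h2 n
    obtain ⟨r, hr⟩ := hr h2 h1 hK'
    have h0 : ∀ n, r n = 0 := fun n => by
      have := (hr n).2.1
      rw [(hK n).2] at this
      simpa using this
    have := (hr n).1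
    rw [(hK n).2, h0 n, api_prev h0 n] at this
    simpa using this
  constructor
  · intro h n
    have h1 := fun n => (h n).1
    exact ⟨hU h1 hK' n, (key h1 (hU h1 hK') n).trans (h n).2⟩
  · intro h n
    have h1 := fun n => (h n).1
    exact ⟨hW h1 hK' n, (key (hW h1 hK') h1 n).symm.trans (h n).2⟩

theorem ht_total0 (hτ : Continuous τ) (hj : IsOpenEmbedding j) (hi : IsClosedEmbedding i)
    (hc : range i = (range j)ᶜ) (hW : HT W τ 0) (f : ℕ → ℕ) :
    HT U (τ ∘ j) f ↔ ∃ b, HT K (τ ∘ i) b ∧ f = sh 1 b := by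
  obtain ⟨res, -, -, hK, hU, hr⟩ := api_les hτ hj hi hc
  have hW' := fun n => (hW n).1
  have key : (∀ n, FiniteDimensional F3 (Hc (Tt (τ ∘ j)) n)) →
      (∀ n, FiniteDimensional F3 (Hc (Tt (τ ∘ i)) n)) →
      ∀ n, Module.finrank F3 (Hc (Tt (τ ∘ j)) n) =
        sh 1 (fun n => Module.finrank F3 (Hc (Tt (τ ∘ i)) n)) n := by
    intro h1 h2
    obtain ⟨r, hr⟩ := hr h1 hW' h2
    have h3 : ∀ n, Module.finrank F3 (Hc (Tt (τ ∘ j)) n) +
        Module.finrank F3 (Hc (Tt (τ ∘ i)) n) = r n + prev r n := fun n => by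
      have := (hr n).1
      rw [(hW n).2] at this
      simpa using this
    have h4 : ∀ n, r n = Module.finrank F3 (Hc (Tt (τ ∘ i)) n) := by
      intro n
      have h5 := h3 n
      have h6 := (hr n).2.1
      cases n with
      | zero => simp only [prev] at h5; omega
      | succ n =>
        have h7 := (hr n).2.2.1
        simp only [prev] at h5
        omega
    intro n
    have h5 := h3 n
    have h6 := h4 n
    cases n with
    | zero => simp only [prev] at h5; simp only [sh]; simp; omega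
    | succ n =>
      have h7 := h4 n
      simp only [prev] at h5
      have h8 : sh 1 (fun n => Module.finrank F3 (Hc (Tt (τ ∘ i)) n)) (n + 1) =
          Module.finrank F3 (Hc (Tt (τ ∘ i)) n) := by
        unfold sh
        rw [if_pos (Nat.le_add_left 1 n), Nat.add_sub_cancel]
      omega
  constructor
  · intro h
    have h1 := fun n => (h n).1
    refine ⟨_, fun n => ⟨hK h1 hW' n, rfl⟩, funext fun n => ?_⟩
    exact (h n).2.symm.trans (key h1 (hK h1 hW') n)
  · rintro ⟨b, h, rfl⟩ n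
    have h1 := fun n => (h n).1
    refine ⟨hU hW' h1 n, (key (hU hW' h1) h1 n).trans ?_⟩
    rw [show (fun n => Module.finrank F3 (Hc (Tt (τ ∘ i)) n)) = b from funext fun n => (h n).2]

theorem ht_split (hτ : Continuous τ) (hj : IsOpenEmbedding j) (hi : IsClosedEmbedding i)
    (hc : range i = (range j)ᶜ) {p : W → K} (hp : IsProperMap p) (hpi : ∀ x, p (i x) = x)
    (hpτ : ∀ x, τ (i (p x)) = τ x) (h : ℕ → ℕ) :
    HT W τ h ↔ ∃ f g, HT U (τ ∘ j) f ∧ HT K (τ ∘ i) g ∧ h = f + g := by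
  obtain ⟨res, hres, hW, -, hU, hr⟩ := api_les hτ hj hi hc
  have hs : ∀ n, Function.Surjective (res n) := fun n => api_onto_split hp hpi hpτ (hres n)
  have key : (∀ n, FiniteDimensional F3 (Hc (Tt (τ ∘ j)) n)) →
      (∀ n, FiniteDimensional F3 (Hc (Tt τ) n)) →
      (∀ n, FiniteDimensional F3 (Hc (Tt (τ ∘ i)) n)) →
      ∀ n, Module.finrank F3 (Hc (Tt (τ ∘ j)) n) + Module.finrank F3 (Hc (Tt (τ ∘ i)) n) =
        Module.finrank F3 (Hc (Tt τ) n) := by
    intro h1 h2 h3 n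
    obtain ⟨r, hr⟩ := hr h1 h2 h3
    have h0 : ∀ n, r n = 0 := fun n => (hr n).2.2.2 (hs n)
    have := (hr n).1
    rw [h0 n, api_prev h0 n] at this
    simpa using this
  constructor
  · intro h
    have h1 := fun n => (h n).1
    have h2 : ∀ n, FiniteDimensional F3 (Hc (Tt (τ ∘ i)) n) := fun n =>
      haveI := h1 n
      Module.Finite.of_surjective (res n) (hs n)
    refine ⟨_, _, fun n => ⟨hU h1 h2 n, rfl⟩, fun n => ⟨h2 n, rfl⟩, funext fun n => ?_⟩
    exact (h n).2.symm.trans (key (hU h1 h2) h1 h2 n).symm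
  · rintro ⟨f, g, hf, hg, rfl⟩ n
    have h1 := fun n => (hf n).1
    have h2 := fun n => (hg n).1
    refine ⟨hW h1 h2 n, (key h1 (hW h1 h2) h2 n).symm.trans ?_⟩
    rw [(hf n).2, (hg n).2, Pi.add_apply]

theorem ht_clopen (hτ : Continuous τ) (hj : IsOpenEmbedding j) (hi : IsClosedEmbedding i)
    (hi' : IsOpenEmbedding i) (hc : range i = (range j)ᶜ) {f g : ℕ → ℕ} (hf : HT U (τ ∘ j) f)
    (hg : HT K (τ ∘ i) g) : HT W τ (f + g) := by
  obtain ⟨res, hres, hW, -, -, hr⟩ := api_les hτ hj hi hc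
  have hs : ∀ n, Function.Surjective (res n) := fun n => api_onto_open hi' (hres n)
  have h1 := fun n => (hf n).1
  have h2 := fun n => (hg n).1
  obtain ⟨r, hr⟩ := hr h1 (hW h1 h2) h2
  have h0 : ∀ n, r n = 0 := fun n => (hr n).2.2.2 (hs n)
  intro n
  refine ⟨hW h1 h2 n, ?_⟩
  have := (hr n).1
  rw [h0 n, api_prev h0 n, (hf n).2, (hg n).2] at this
  simpa using this.symm

end Vale.Agent.P265.L
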