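import Vale.Agent.P265.T.Pull

/-! Part T: extension of cochains from open and closed subspaces. PLAN. For an injective g : U → W define the extension by zero
ex g φ x l = if h : x ∈ range g ∧ ∀ y ∈ l, y ∈ range g then φ (g⁻¹ x) (l.map g⁻¹) else 0 (Function.invFun needs Nonempty U; if U is empty use 0; or use List.attach / pmap; pc g 1 (ex g φ) = φ).
ext_closed: the extension by zero. ext_open: K the compact set of CS, N a compact neighbourhood of K in U (IsOpenEmbedding.locallyCompactSpace, exists_compact_superset), take ex j (cut N φ);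
its support lies in the compact set j N. lz_of_open: an open embedding is a local homeomorphism: image of the neighbourhood. cs_of_open: K ∩ (closed set of non LZ points) is compact, inside range j, its preimage is compact (IsInducing.isCompact_preimage_iff). -/

open Set Topology Filter

noncomputable section
namespace Vale.Agent.P265.L

variable {W U K : Type} [MetricSpace W] [LocallyCompactSpace W] [TopologicalSpace U]
  [TopologicalSpace K]

section aux
variable {A B : Type} {g : A → B} {p : ℕ}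

/-- Extension by zero. -/
def ext_ex (g : A → B) (φ : Co A) : Co B := fun x l =>
  Function.extend (fun q : A × List A => (g q.1, q.2.map g)) (fun q => φ q.1 q.2) 0 (x, l)

theorem ext_apply (hg : Function.Injective g) (φ : Co A) (x : A) (l : List A) :
    ext_ex g φ (g x) (l.map g) = φ x l :=
  (hg.prodMap (List.map_injective_iff.2 hg)).extend_apply (fun q => φ q.1 q.2) 0 (x, l)

theorem ext_pc (hg : Function.Injective g) (φ : Co A) : pc g 1 (ext_ex g φ) = φ := by
  funext x l
  simp only [pc, Pi.one_apply, one_mul, ext_apply hg]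

theorem ext_van (hg : Function.Injective g) {φ : Co A} {V : Set B} (h : Van p φ (g ⁻¹' V)) :
    Van p (ext_ex g φ) V := by
  intro x l hl hx hy
  by_cases he : ∃ q : A × List A, (g q.1, q.2.map g) = (x, l)
  · obtain ⟨⟨a, m⟩, e⟩ := he
    obtain ⟨rfl, rfl⟩ := Prod.mk.inj e
    rw [ext_apply hg]
    exact h a m (by simpa using hl) hx fun y hm => hy _ (List.mem_map_of_mem hm)
  · exact Function.extend_apply' _ _ _ he

theorem ext_van_iff {φ : Co B} {V : Set B} :
    Van p (pc g 1 φ) (g ⁻¹' V) ↔ Van p φ (V ∩ range g) := by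
  constructor
  · rintro h x l hl ⟨hx, a, rfl⟩ hy
    obtain ⟨m, rfl⟩ : l ∈ range (List.map g) := by
      rw [range_list_map]
      exact fun y hm => (hy y hm).2
    have := h a m (by simpa using hl) hx fun y hm => (hy _ (List.mem_map_of_mem hm)).1
    simpa only [pc, Pi.one_apply, one_mul] using this
  · intro h a m hl hx hy
    simp only [pc, Pi.one_apply, one_mul]
    refine h _ _ (by simpa using hl) ⟨hx, a, rfl⟩ fun y hm => ?_
    obtain ⟨z, hz, rfl⟩ := List.mem_map.1 hm
    exact ⟨hy z hz, z, rfl⟩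

variable [TopologicalSpace A] [TopologicalSpace B]

theorem ext_lz_iff (hg : IsInducing g) {φ : Co A} {a : A} :
    LZ p φ a ↔ ∃ V ∈ 𝓝 (g a), Van p φ (g ⁻¹' V) := by
  unfold LZ
  rw [hg.nhds_eq_comap]
  exact ⟨fun ⟨_, ⟨V, hV, hs⟩, h⟩ => ⟨V, hV, h.mono hs⟩,
    fun ⟨_, hV, h⟩ => ⟨_, preimage_mem_comap hV, h⟩⟩

end aux

theorem ext_closed {i : K → W} (hi : IsClosedEmbedding i) {p : ℕ} {φ : Co K} (h : CS p φ) :
    ∃ φ' : Co W, CS p φ' ∧ pc i 1 φ' = φ := by
  obtain ⟨C, hC, h⟩ := h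
  refine ⟨ext_ex i φ, ⟨i '' C, hC.image hi.continuous, fun a ha => ?_⟩, ext_pc hi.injective φ⟩
  by_cases hr : a ∈ range i
  · obtain ⟨b, rfl⟩ := hr
    obtain ⟨V, hV, hv⟩ := (ext_lz_iff hi.isInducing).1 (h b fun hb => ha ⟨b, hb, rfl⟩)
    exact ⟨V, hV, ext_van hi.injective hv⟩
  · exact ⟨(range i)ᶜ, hi.isClosed_range.isOpen_compl.mem_nhds hr,
      ext_van hi.injective fun x _ _ hx _ => absurd ⟨x, rfl⟩ hx⟩

theorem lz_closed_iff {i : K → W} (hi : IsClosedEmbedding i) {p : ℕ} {φ : Co W} (a : K) :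
    LZ p (pc i 1 φ) a ↔ ∃ V ∈ 𝓝 (i a), Van p φ (V ∩ range i) := by
  simp only [ext_lz_iff hi.isInducing, ext_van_iff]

theorem lz_open_iff {j : U → W} (hj : IsOpenEmbedding j) {p : ℕ} {φ : Co W} (a : U) :
    LZ p (pc j 1 φ) a ↔ LZ p φ (j a) := by
  simp only [ext_lz_iff hj.isInducing, ext_van_iff]
  exact ⟨fun ⟨_, hV, h⟩ => ⟨_, inter_mem hV (hj.isOpen_range.mem_nhds ⟨a, rfl⟩), h⟩,
    fun ⟨V, hV, h⟩ => ⟨V, hV, h.mono inter_subset_left⟩⟩

theorem ext_open {j : U → W} (hj : IsOpenEmbedding j) {p : ℕ} {φ : Co U} (h : CS p φ) :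
    ∃ φ' : Co W, CS p φ' ∧ (∀ a ∉ range j, LZ p φ' a) ∧ ∀ a, LZ p (pc j 1 φ' - φ) a := by
  obtain ⟨C, hC, h⟩ := h
  have := hj.locallyCompactSpace
  obtain ⟨N, hN, hCN⟩ := exists_compact_superset hC
  have hN' := hN.image hj.continuous
  have key : ∀ a ∉ j '' N, LZ p (ext_ex j (cut N φ)) a := fun a ha =>
    ⟨(j '' N)ᶜ, hN'.isClosed.isOpen_compl.mem_nhds ha, ext_van hj.injective
      fun x l _ hx _ => if_neg fun hn => hx ⟨x, hn.1, rfl⟩⟩
  refine ⟨ext_ex j (cut N φ), ⟨_, hN', key⟩,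
    fun a ha => key a fun hn => ha (image_subset_range _ _ hn), fun a => ?_⟩
  rw [ext_pc hj.injective]
  by_cases ha : a ∈ C
  · rw [← neg_sub]
    exact (lz_sub_cut (mem_interior_iff_mem_nhds.1 (hCN ha))).neg
  · exact ((h a ha).cut N).sub (h a ha)

theorem cs_of_open {j : U → W} (hj : IsOpenEmbedding j) {p : ℕ} {φ : Co W} (h : CS p φ)
    (h' : ∀ a ∉ range j, LZ p φ a) : CS p (pc j 1 φ) := by
  obtain ⟨C, hC, h⟩ := h
  have hs : C ∩ {a | LZ p φ a}ᶜ ⊆ range j := fun a ha => by
    by_contra hn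
    exact ha.2 (h' a hn)
  refine ⟨_, (hj.isInducing.isCompact_preimage_iff hs).2
    (hC.inter_right (isOpen_lz p φ).isClosed_compl), fun a ha => LZ.pc hj.continuous 1 ?_⟩
  by_contra hn
  exact ha ⟨by_contra fun hc => hn (h _ hc), hn⟩

theorem pc_one_dT {U W : Type} (j : U → W) (T : W → W → F3) (φ : Co W) :
    pc j 1 (dT T φ) = dT (fun x y => T (j x) (j y)) (pc j 1 φ) := by
  funext x l
  cases l with
  | nil => simp [pc, dT]
  | cons y l => exact (dT_pc φ x y l (by simp)).symm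

end Vale.Agent.P265.L
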