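import Vale.Agent.P265.T.LesE

/-! Part T: the long exact sequence of an open subspace and its closed complement. PLAN. e, δ from LesE, res from exists_pull (hi.isProperMap, gauge_one).
Exact at W: res φ = 0 gives ψ on K, extend, taut, φ - dT ψ' - dT ψ'' is a cocycle LZ off range j in the class of φ. Exact at K: if δ c = 0 with c represented by φ, pc j 1 (dT φ) = dT ψ locally,
ext_open ψ = ψ', φ - ψ' is a cocycle on W restricting to c. Exact at U: if e c = 0, c represented by φ = dT ψ locally with ψ CS n, then c = δ (class of pc i 1 ψ). e 0 injective: Bc T 0 means LZ everywhere. -/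

open Set Topology Filter

noncomputable section
namespace Vale.Agent.P265.L

theorem les_pc_sub {W W' : Type} (f : W → W') (κ : W → F3) (φ ψ : Co W') :
    pc f κ (φ - ψ) = pc f κ φ - pc f κ ψ := by
  funext x l
  simp only [pc, Pi.sub_apply, mul_sub]

theorem les_bc {W : Type} [TopologicalSpace W] (T : W → W → F3) {n : ℕ} {ψ : Co W}
    (h : ∀ q, q + 1 = n → CS q ψ) : dT T ψ ∈ Bc T n :=
  ⟨ψ, h, fun a => by rw [sub_self]; exact LZ.zero _ a⟩

theorem les_extc {W K : Type} [MetricSpace W] [LocallyCompactSpace W] [TopologicalSpace K]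
    (T : W → W → F3) {i : K → W} (hi : IsClosedEmbedding i) {n : ℕ} {ψ : Co K}
    (h : ∀ q, q + 1 = n → CS q ψ) : ∃ ψ' : Co W, (∀ q, q + 1 = n → CS q ψ') ∧
      ∀ a, LZ n (dT (fun x y => T (i x) (i y)) ψ - pc i 1 (dT T ψ')) a := by
  cases n with
  | zero =>
    refine ⟨0, fun q _ => CS.zero q, fun a => ?_⟩
    rw [pc_one_dT]
    exact (lz_zero_dT _ _ a).sub (lz_zero_dT _ _ a)
  | succ n =>
    obtain ⟨ψ', h1, h2⟩ := ext_closed hi (h n rfl)
    refine ⟨ψ', fun q hq => ?_, fun a => ?_⟩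
    · obtain rfl : q = n := by omega
      exact h1
    · rw [pc_one_dT, h2, sub_self]
      exact LZ.zero _ a

theorem les {W U K : Type} [MetricSpace W] [LocallyCompactSpace W] [TopologicalSpace U]
    [TopologicalSpace K] {T : W → W → F3} {j : U → W} {i : K → W} (hT : LocSys T)
    (hj : IsOpenEmbedding j) (hi : IsClosedEmbedding i) (hc : range i = (range j)ᶜ) :
    ∃ (e : ∀ n, Hc (fun x y => T (j x) (j y)) n →ₗ[F3] Hc T n)
      (res : ∀ n, Hc T n →ₗ[F3] Hc (fun x y => T (i x) (i y)) n)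
      (δ : ∀ n, Hc (fun x y => T (i x) (i y)) n →ₗ[F3] Hc (fun x y => T (j x) (j y)) (n + 1)),
      (∀ n, IsPull i 1 (res n)) ∧ Function.Injective (e 0) ∧
      ∀ n, Function.Exact (e n) (res n) ∧ Function.Exact (res n) (δ n) ∧
        Function.Exact (δ n) (e (n + 1)) := by
  choose e he1 he2 using exists_e hj T
  choose res hres using exists_pull hi.isProperMap (gauge_one i T)
  choose δ hδ1 hδ2 using exists_delta hT hj hi hc
  have hij : ∀ a, i a ∉ range j := fun a => by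
    have : i a ∈ range i := ⟨a, rfl⟩
    rwa [hc] at this
  refine ⟨e, res, δ, hres, (injective_iff_map_eq_zero _).2 fun c h0 => ?_, fun n =>
    ⟨fun y => ⟨fun h0 => ?_, ?_⟩, fun c => ⟨fun h0 => ?_, ?_⟩, fun c => ⟨fun h0 => ?_, ?_⟩⟩⟩
  · obtain ⟨φ, hφ, h, rfl⟩ := he2 0 c
    obtain ⟨_, h1⟩ := he1 0 φ hφ
    rw [h1, mk_eq_zero_iff] at h0
    obtain ⟨ψ, -, h2⟩ := h0
    refine (mk_eq_zero_iff _).2 (mem_Bc_of_lz fun a => LZ.pc hj.continuous _ ?_)
    simpa only [sub_add_cancel] using (h2 (j a)).add (lz_zero_dT T ψ (j a))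
  · obtain ⟨φ, rfl⟩ := Submodule.Quotient.mk_surjective _ y
    obtain ⟨_, h1⟩ := hres n φ
    rw [h1, mk_eq_zero_iff] at h0
    obtain ⟨ψ, h2, h3⟩ := h0
    obtain ⟨ψ', h4, h5⟩ := les_extc T hi h2
    have hb := les_bc T h4
    have hz := (Zc T n).sub_mem φ.2 (hT.Bc_le_Zc n hb)
    obtain ⟨ψ'', h6, h7⟩ := taut hi.isClosed_range T hz.1 (by
      rintro _ ⟨a, rfl⟩
      rw [← lz_closed_iff hi, les_pc_sub]
      simpa only [sub_add_sub_cancel] using (h3 a).add (h5 a)) fun a _ => hz.2 a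
    have hb' := les_bc T fun q hq => (h6 q hq).1
    obtain ⟨h8, h9⟩ := he1 n ⟨_, (Zc T n).sub_mem hz (hT.Bc_le_Zc n hb')⟩
      fun a ha => h7 a (by rw [hc]; exact ha)
    refine ⟨_, h9.trans ((mk_eq_mk_iff _ _).2 ?_)⟩
    have := (Bc T n).neg_mem ((Bc T n).add_mem hb hb')
    simp only
    rwa [show φ.1 - dT T ψ' - dT T ψ'' - φ.1 = -(dT T ψ' + dT T ψ'') by abel]
  · rintro ⟨c, rfl⟩
    obtain ⟨φ, hφ, h, rfl⟩ := he2 n c
    obtain ⟨_, h1⟩ := he1 n φ hφ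
    obtain ⟨_, h2⟩ := hres n φ
    rw [h1, h2, mk_eq_zero_iff]
    exact mem_Bc_of_lz fun a => LZ.pc hi.continuous _ (hφ _ (hij a))
  · obtain ⟨φ, h1, h2, h, rfl⟩ := hδ2 n c
    obtain ⟨_, _, h3⟩ := hδ1 n φ h1 h2
    rw [h3, mk_eq_zero_iff] at h0
    obtain ⟨ψ, h4, h5⟩ := h0
    obtain ⟨ψ', h6, h7, h8⟩ := ext_open hj (h4 n rfl)
    have hz : φ - ψ' ∈ Zc T n := by
      refine ⟨h1.sub h6, fun a => ?_⟩
      rw [dT_sub]
      by_cases ha : a ∈ range j
      · obtain ⟨u, rfl⟩ := ha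
        have := (h5 u).sub ((h8 u).dT fun x y => T (j x) (j y))
        rw [dT_sub, sub_sub_sub_cancel_right, ← pc_one_dT, ← les_pc_sub] at this
        exact (lz_open_iff hj u).1 this
      · exact (h2 a ha).sub ((h7 a ha).dT T)
    obtain ⟨_, h9⟩ := hres n ⟨_, hz⟩
    refine ⟨_, h9.trans ((mk_eq_mk_iff _ _).2 (mem_Bc_of_lz fun a => ?_))⟩
    simp only
    rw [← les_pc_sub, sub_sub_cancel_left]
    exact LZ.pc hi.continuous _ (h7 _ (hij a)).neg
  · rintro ⟨y, rfl⟩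
    obtain ⟨φ, rfl⟩ := Submodule.Quotient.mk_surjective _ y
    obtain ⟨_, h1⟩ := hres n φ
    obtain ⟨_, _, h3⟩ := hδ1 n φ.1 φ.2.1 fun a _ => φ.2.2 a
    rw [h1, h3, mk_eq_zero_iff]
    exact mem_Bc_of_lz fun a => LZ.pc hj.continuous _ (φ.2.2 _)
  · obtain ⟨φ, hφ, h, rfl⟩ := he2 (n + 1) c
    obtain ⟨_, h1⟩ := he1 (n + 1) φ hφ
    rw [h1, mk_eq_zero_iff] at h0
    obtain ⟨ψ, h2, h3⟩ := h0
    obtain ⟨_, _, h4⟩ := hδ1 n ψ (h2 n rfl) fun a ha => by
      simpa only [sub_sub_cancel] using (hφ a ha).sub (h3 a)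
    refine ⟨_, h4.trans ((mk_eq_mk_iff _ _).2 (mem_Bc_of_lz fun a => ?_))⟩
    simp only
    rw [← les_pc_sub, ← neg_sub]
    exact LZ.pc hj.continuous _ (h3 _).neg
  · rintro ⟨d, rfl⟩
    obtain ⟨φ, h1, h2, h, rfl⟩ := hδ2 n d
    obtain ⟨_, _, h3⟩ := hδ1 n φ h1 h2
    have hb : dT T φ ∈ Bc T (n + 1) := les_bc T fun q hq => by
      obtain rfl : q = n := by omega
      exact h1
    obtain ⟨_, h4⟩ := he1 (n + 1) ⟨_, hT.Bc_le_Zc _ hb⟩ h2
    rw [h3, h4, mk_eq_zero_iff]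
    exact hb

end Vale.Agent.P265.L
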