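import Vale.Agent.P265.T.Alg

/-! Part T: tautness. PLAN. A empty: ψ = 0. Otherwise choose r : W → W with r x ∈ A, r a = a on A and dist x (r x) ≤ 2 * infDist x A
(Metric.infDist_lt_iff off A); so for a ∈ A and U ∈ 𝓝 a there is V ∈ 𝓝 a, V ⊆ U, with r V ⊆ U ∩ A. K from CS, N a compact neighbourhood of the compact K ∩ A
(exists_compact_superset). ψ = - cut N (Dp r φ). prism: φ - dT (-(Dp r φ)) = T x (r x) φ (r x) (map r l) - Dp r (dT φ); both terms vanish near a ∈ A (h1, h2, Van.Dp).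
For a in the interior of N use lz_sub_cut and LZ.dT (p = 0: lz_zero_dT and Dp identity still fine); for a ∈ A outside the interior of N, a ∉ K, so φ and Dp r φ are LZ at a (Van.Dp), LZ.cut. -/

open Set Topology Filter

noncomputable section
namespace Vale.Agent.P265.L

theorem taut_ret {W : Type} [MetricSpace W] {A : Set W} (hA : IsClosed A) (hne : A.Nonempty) :
    ∃ r : W → W, (∀ x, r x ∈ A) ∧ (∀ a ∈ A, r a = a) ∧
      ∀ a ∈ A, ∀ U ∈ 𝓝 a, ∃ V ∈ 𝓝 a, V ⊆ U ∧ MapsTo r V U := by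
  have ex : ∀ x : W, ∃ y ∈ A, (x ∈ A → y = x) ∧ dist x y ≤ 2 * Metric.infDist x A := fun x => by
    by_cases hx : x ∈ A
    · exact ⟨x, hx, fun _ => rfl, by rw [dist_self, Metric.infDist_zero_of_mem hx, mul_zero]⟩
    · have h0 := (hA.notMem_iff_infDist_pos hne).1 hx
      obtain ⟨y, hy, h⟩ := (Metric.infDist_lt_iff hne).1
        (show Metric.infDist x A < 2 * Metric.infDist x A by linarith)
      exact ⟨y, hy, fun h => absurd h hx, h.le⟩
  choose r r1 r2 r3 using ex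
  refine ⟨r, r1, r2, fun a ha U hU => ?_⟩
  obtain ⟨ε, hε, hb⟩ := Metric.mem_nhds_iff.1 hU
  refine ⟨Metric.ball a (ε / 3), Metric.ball_mem_nhds a (by linarith),
    (Metric.ball_subset_ball (by linarith)).trans hb, fun x hx => hb ?_⟩
  have h1 := Metric.infDist_le_dist_of_mem (x := x) ha
  have h2 := dist_triangle_left (r x) a x
  rw [Metric.mem_ball] at hx ⊢
  linarith [r3 x]

theorem taut {W : Type} [MetricSpace W] [LocallyCompactSpace W] {A : Set W} (hA : IsClosed A)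
    (T : W → W → F3) {p : ℕ} {φ : Co W} (hφ : CS p φ)
    (h1 : ∀ a ∈ A, ∃ U ∈ 𝓝 a, Van p φ (U ∩ A)) (h2 : ∀ a ∈ A, LZ (p + 1) (dT T φ) a) :
    ∃ ψ : Co W, (∀ q, q + 1 = p → CS q ψ ∧ ∀ a ∈ A, ∃ U ∈ 𝓝 a, Van q ψ (U ∩ A)) ∧
      ∀ a ∈ A, LZ p (φ - dT T ψ) a := by
  rcases A.eq_empty_or_nonempty with rfl | hne
  · exact ⟨0, fun q _ => ⟨CS.zero q, fun a ha => ha.elim⟩, fun a ha => ha.elim⟩
  obtain ⟨r, r1, r2, r3⟩ := taut_ret hA hne
  obtain ⟨K, hK, hφ⟩ := hφ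
  obtain ⟨N, hN, hKN⟩ := exists_compact_superset (hK.inter_right hA)
  have lzD : ∀ {q : ℕ} {χ : Co W} {a : W}, a ∈ A → LZ (q + 1) χ a → LZ q (Dp r χ) a := by
    rintro q χ a ha ⟨U, hU, h⟩
    obtain ⟨V, hV, v1, v2⟩ := r3 a ha U hU
    exact ⟨V, hV, h.Dp v1 v2⟩
  refine ⟨-cut N (Dp r φ), ?_, fun a ha => ?_⟩
  · rintro q rfl
    refine ⟨⟨N, hN, fun a ha => (lz_cut_of_compl (hN.isClosed.isOpen_compl.mem_nhds ha)).neg⟩,
      fun a ha => ?_⟩
    obtain ⟨U, hU, h⟩ := h1 a ha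
    refine ⟨U, hU, fun x l hl hx hy => ?_⟩
    have h3 := h.Dp (r := r) subset_rfl (fun y hy => by rw [r2 y hy.2]; exact hy) x l hl hx hy
    simp [cut, h3]
  · have e : φ - dT T (-cut N (Dp r φ)) =
        (fun x l => T x (r x) * φ (r x) (l.map r)) - Dp r (dT T φ) -
          dT T (Dp r φ - cut N (Dp r φ)) := by
      rw [← zero_sub, dT_sub, dT_sub, dT_zero]
      funext x l
      simp only [Pi.sub_apply, Pi.zero_apply]
      linear_combination prism T r φ x l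
    rw [e]
    refine (LZ.sub ?_ (lzD ha (h2 a ha))).sub ?_
    · obtain ⟨U, hU, h⟩ := h1 a ha
      obtain ⟨V, hV, -, v2⟩ := r3 a ha U hU
      refine ⟨V, hV, fun x l hl hx hy => ?_⟩
      have h3 := h (r x) (l.map r) (by rw [List.length_map, hl]) ⟨v2 hx, r1 x⟩ fun y hy' => by
        obtain ⟨z, hz, rfl⟩ := List.mem_map.1 hy'
        exact ⟨v2 (hy z hz), r1 z⟩
      simp only [h3, mul_zero]
    · cases p with
      | zero => exact lz_zero_dT _ _ _
      | succ q =>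
        refine LZ.dT T ?_
        by_cases hk : a ∈ K
        · exact lz_sub_cut (mem_interior_iff_mem_nhds.1 (hKN ⟨hk, ha⟩))
        · exact (lzD ha (hφ a hk)).sub ((lzD ha (hφ a hk)).cut N)

end Vale.Agent.P265.L
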