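import Vale.Agent.P265.T.Ext
import Vale.Agent.P265.T.Taut

/-! Part T: the two maps of the long exact sequence, characterised on representatives. PLAN. Generic trick: to define a linear map
L : Hc1 → Hc2, take a submodule S of cochains on W with linear maps a : S → Hc1 surjective and b : S → Hc2 with ker a ≤ ker b; L = (ker a).liftQ b ∘ (quotKerEquivOfSurjective).symm, L (a s) = b s.
exists_e: S = {φ ∈ Zc T n, LZ off range j}, a = class of pc j 1 φ (cs_of_open, pc_one_dT, lz_open_iff), onto by ext_open; ker: extend the primitive ψ by ext_open (n = 0: no primitive needed, lz_zero_dT).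
exists_delta: S = {φ | CS n φ, dT φ LZ off range j}, a = class of pc i 1 φ, b = class of pc j 1 (dT T φ) (LocSys.lz_dT_dT). a onto: ext_closed, then taut applied to dT φ' in degree n+1, replace φ' by φ' - ψ.
ker a ≤ ker b: pc i 1 φ = dT ψ locally, extend ψ (ext_closed), apply taut to φ - dT ψ', get χ = φ - dT ψ' - dT ψ'' LZ off range j, and dT χ - dT φ is LZ. -/

open Set Topology Filter

noncomputable section
namespace Vale.Agent.P265.L

variable {W U K : Type} [MetricSpace W] [LocallyCompactSpace W] [TopologicalSpace U]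
  [TopologicalSpace K] {T : W → W → F3} {j : U → W} {i : K → W}

theorem lese_lift {M H H' : Type} [AddCommGroup M] [Module F3 M] [AddCommGroup H] [Module F3 H]
    [AddCommGroup H'] [Module F3 H'] (a : M →ₗ[F3] H) (b : M →ₗ[F3] H')
    (ha : Function.Surjective a) (hk : ∀ s, a s = 0 → b s = 0) :
    ∃ L : H →ₗ[F3] H', ∀ s, L (a s) = b s := by
  haveI : Fact (Nat.Prime 3) := ⟨Nat.prime_three⟩
  obtain ⟨g, hg⟩ := a.exists_rightInverse_of_surjective (LinearMap.range_eq_top.2 ha)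
  refine ⟨b ∘ₗ g, fun s => ?_⟩
  have h1 : a (g (a s)) = a s := LinearMap.congr_fun hg (a s)
  have h2 := hk (g (a s) - s) (by rw [map_sub, h1, sub_self])
  rwa [map_sub, sub_eq_zero] at h2

/-- Pull back as a linear map. -/
def lese_pc {X Y : Type} (f : X → Y) : Co Y →ₗ[F3] Co X where
  toFun := pc f 1
  map_add' φ ψ := by
    funext x l
    simp [pc]
  map_smul' c φ := by
    funext x l
    simp [pc]

theorem lese_pc_sub {X Y : Type} (f : X → Y) (φ ψ : Co Y) :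
    pc f 1 (φ - ψ) = pc f 1 φ - pc f 1 ψ := (lese_pc f).map_sub φ ψ

/-- The coboundary as a linear map. -/
def lese_dT {X : Type} (T : X → X → F3) : Co X →ₗ[F3] Co X where
  toFun := dT T
  map_add' := dT_add T
  map_smul' := dT_smul T

/-- Cochains that are locally zero off `A`. -/
def lese_off {X : Type} [TopologicalSpace X] (A : Set X) (p : ℕ) : Submodule F3 (Co X) where
  carrier := {φ | ∀ a ∉ A, LZ p φ a}
  zero_mem' := fun a _ => LZ.zero p a
  add_mem' := fun h h' a ha => (h a ha).add (h' a ha)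
  smul_mem' := fun c _ h a ha => (h a ha).smul c

/-- Cochains with compact support. -/
def lese_cs (X : Type) [TopologicalSpace X] (p : ℕ) : Submodule F3 (Co X) where
  carrier := {φ | CS p φ}
  zero_mem' := CS.zero p
  add_mem' := fun h h' => h.add h'
  smul_mem' := fun c _ h => h.smul c

/-- The class of the value of a linear map into cocycles. -/
def lese_cl {M X : Type} [AddCommGroup M] [Module F3 M] [TopologicalSpace X] (T : X → X → F3)
    (p : ℕ) (F : M →ₗ[F3] Co X) (h : ∀ s, F s ∈ Zc T p) : M →ₗ[F3] Hc T p :=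
  Submodule.mkQ _ ∘ₗ F.codRestrict (Zc T p) h

theorem lese_cases (hj : IsOpenEmbedding j) {p : ℕ} {φ : Co W} (h : ∀ a ∉ range j, LZ p φ a)
    (h' : ∀ u, LZ p (pc j 1 φ) u) (a : W) : LZ p φ a := by
  by_cases ha : a ∈ range j
  · obtain ⟨u, rfl⟩ := ha
    exact (lz_open_iff hj u).1 (h' u)
  · exact h a ha

theorem lese_z (hj : IsOpenEmbedding j) {p : ℕ} {φ : Co W} (h : φ ∈ Zc T p)
    (h' : ∀ a ∉ range j, LZ p φ a) : pc j 1 φ ∈ Zc (fun x y => T (j x) (j y)) p :=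
  ⟨cs_of_open hj h.1 h', fun a => by
    rw [← pc_one_dT]
    exact (lz_open_iff hj a).2 (h.2 (j a))⟩

theorem lese_cs_dT {X : Type} [TopologicalSpace X] (T : X → X → F3) {p : ℕ} {ψ : Co X}
    (h : ∀ q, q + 1 = p → CS q ψ) : CS p (dT T ψ) := by
  cases p with
  | zero => exact CS.of_lz (lz_zero_dT T ψ)
  | succ q => exact (h q rfl).dT T

theorem exists_e (hj : IsOpenEmbedding j) (T : W → W → F3) (n : ℕ) :
    ∃ e : Hc (fun x y => T (j x) (j y)) n →ₗ[F3] Hc T n,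
      (∀ φ : Zc T n, (∀ a ∉ range j, LZ n φ.1 a) →
        ∃ h : pc j 1 φ.1 ∈ Zc (fun x y => T (j x) (j y)) n,
          e (Submodule.Quotient.mk ⟨_, h⟩) = Submodule.Quotient.mk φ) ∧
      ∀ c : Hc (fun x y => T (j x) (j y)) n, ∃ φ : Zc T n, (∀ a ∉ range j, LZ n φ.1 a) ∧
        ∃ h : pc j 1 φ.1 ∈ Zc (fun x y => T (j x) (j y)) n, c = Submodule.Quotient.mk ⟨_, h⟩ := by
  have sur : ∀ c : Hc (fun x y => T (j x) (j y)) n, ∃ φ : Zc T n, (∀ a ∉ range j, LZ n φ.1 a) ∧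
      ∃ h : pc j 1 φ.1 ∈ Zc (fun x y => T (j x) (j y)) n, c = Submodule.Quotient.mk ⟨_, h⟩ := by
    intro c
    obtain ⟨⟨ψ, hψ⟩, rfl⟩ := Submodule.Quotient.mk_surjective _ c
    obtain ⟨φ, h1, h2, h3⟩ := ext_open hj hψ.1
    have h4 : φ ∈ Zc T n := ⟨h1, lese_cases hj (fun a ha => (h2 a ha).dT T) fun u => by
      have := ((h3 u).dT fun x y => T (j x) (j y)).add (hψ.2 u)
      rwa [dT_sub, sub_add_cancel, ← pc_one_dT] at this⟩
    exact ⟨⟨φ, h4⟩, h2, lese_z hj h4 h2, ((mk_eq_mk_iff _ _).2 (mem_Bc_of_lz h3)).symm⟩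
  obtain ⟨e, he⟩ := lese_lift
    (lese_cl (fun x y => T (j x) (j y)) n (lese_pc j ∘ₗ (Zc T n ⊓ lese_off (range j) n).subtype)
      fun s => lese_z hj s.2.1 s.2.2)
    (lese_cl T n (Zc T n ⊓ lese_off (range j) n).subtype fun s => s.2.1)
    (fun c => by
      obtain ⟨φ, h1, h2, rfl⟩ := sur c
      exact ⟨⟨φ.1, φ.2, h1⟩, rfl⟩)
    (by
      rintro ⟨φ, h1, h2⟩ h
      obtain ⟨ψ, h3, h4⟩ : pc j 1 φ ∈ Bc (fun x y => T (j x) (j y)) n := (mk_eq_zero_iff _).1 h
      refine (mk_eq_zero_iff (T := T) ⟨φ, h1⟩).2 ?_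
      cases n with
      | zero =>
        refine mem_Bc_of_lz (lese_cases hj h2 fun u => ?_)
        have := (h4 u).add (lz_zero_dT (fun x y => T (j x) (j y)) ψ u)
        rwa [sub_add_cancel] at this
      | succ q =>
        obtain ⟨ψ', h5, h6, h7⟩ := ext_open hj (h3 q rfl)
        refine ⟨ψ', fun q' hq => by rwa [Nat.succ_injective hq],
          lese_cases hj (fun a ha => (h2 a ha).sub ((h6 a ha).dT T)) fun u => ?_⟩
        have := (h4 u).sub ((h7 u).dT fun x y => T (j x) (j y))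
        rwa [dT_sub, sub_sub_sub_cancel_right, ← pc_one_dT, ← lese_pc_sub] at this)
  exact ⟨e, fun φ h => ⟨lese_z hj φ.2 h, he ⟨φ.1, φ.2, h⟩⟩, sur⟩

theorem exists_delta (hT : LocSys T) (hj : IsOpenEmbedding j) (hi : IsClosedEmbedding i)
    (hc : range i = (range j)ᶜ) (n : ℕ) :
    ∃ δ : Hc (fun x y => T (i x) (i y)) n →ₗ[F3] Hc (fun x y => T (j x) (j y)) (n + 1),
      (∀ φ : Co W, CS n φ → (∀ a ∉ range j, LZ (n + 1) (dT T φ) a) →
        ∃ (h : pc i 1 φ ∈ Zc (fun x y => T (i x) (i y)) n)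
          (h' : pc j 1 (dT T φ) ∈ Zc (fun x y => T (j x) (j y)) (n + 1)),
          δ (Submodule.Quotient.mk ⟨_, h⟩) = Submodule.Quotient.mk ⟨_, h'⟩) ∧
      ∀ c : Hc (fun x y => T (i x) (i y)) n, ∃ φ : Co W, CS n φ ∧
        (∀ a ∉ range j, LZ (n + 1) (dT T φ) a) ∧
        ∃ h : pc i 1 φ ∈ Zc (fun x y => T (i x) (i y)) n, c = Submodule.Quotient.mk ⟨_, h⟩ := by
  have hm : ∀ a, a ∉ range j ↔ a ∈ range i := fun a => by rw [hc, mem_compl_iff]
  have van : ∀ {p : ℕ} {φ : Co W}, (∀ k, LZ p (pc i 1 φ) k) ↔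
      ∀ a ∈ range i, ∃ V ∈ 𝓝 a, Van p φ (V ∩ range i) := by
    intro p φ
    simp only [lz_closed_iff hi, forall_mem_range]
  have ha : ∀ φ : Co W, CS n φ → (∀ a ∉ range j, LZ (n + 1) (dT T φ) a) →
      pc i 1 φ ∈ Zc (fun x y => T (i x) (i y)) n := fun φ h1 h2 =>
    ⟨h1.pc hi.isProperMap 1, fun k => by
      rw [← pc_one_dT]
      exact (h2 _ ((hm _).2 (mem_range_self k))).pc hi.continuous 1⟩
  have hb : ∀ φ : Co W, CS n φ → (∀ a ∉ range j, LZ (n + 1) (dT T φ) a) →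
      pc j 1 (dT T φ) ∈ Zc (fun x y => T (j x) (j y)) (n + 1) := fun φ h1 h2 =>
    lese_z hj ⟨h1.dT T, hT.lz_dT_dT _ φ⟩ h2
  have sur : ∀ c : Hc (fun x y => T (i x) (i y)) n, ∃ φ : Co W, CS n φ ∧
      (∀ a ∉ range j, LZ (n + 1) (dT T φ) a) ∧
      ∃ h : pc i 1 φ ∈ Zc (fun x y => T (i x) (i y)) n, c = Submodule.Quotient.mk ⟨_, h⟩ := by
    intro c
    obtain ⟨⟨ψ, hψ⟩, rfl⟩ := Submodule.Quotient.mk_surjective _ c
    obtain ⟨φ, h1, rfl⟩ := ext_closed hi hψ.1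
    obtain ⟨χ, h2, h3⟩ := taut hi.isClosed_range T (h1.dT T)
      (van.1 fun k => by rw [pc_one_dT]; exact hψ.2 k) fun a _ => hT.lz_dT_dT _ φ a
    have h4 := h1.sub (h2 n rfl).1
    have h5 : ∀ a ∉ range j, LZ (n + 1) (dT T (φ - χ)) a := fun a h => by
      rw [dT_sub]
      exact h3 a ((hm a).1 h)
    refine ⟨φ - χ, h4, h5, ha _ h4 h5, (mk_eq_mk_iff _ _).2 (mem_Bc_of_lz fun k => ?_)⟩
    show LZ n (pc i 1 φ - pc i 1 (φ - χ)) k
    rw [lese_pc_sub, sub_sub_cancel]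
    exact van.2 (h2 n rfl).2 k
  obtain ⟨δ, hδ⟩ := lese_lift
    (lese_cl (fun x y => T (i x) (i y)) n (lese_pc i ∘ₗ
      (lese_cs W n ⊓ (lese_off (range j) (n + 1)).comap (lese_dT T)).subtype)
      fun s => ha s.1 s.2.1 s.2.2)
    (lese_cl (fun x y => T (j x) (j y)) (n + 1) (lese_pc j ∘ₗ lese_dT T ∘ₗ
      (lese_cs W n ⊓ (lese_off (range j) (n + 1)).comap (lese_dT T)).subtype)
      fun s => hb s.1 s.2.1 s.2.2)
    (fun c => by
      obtain ⟨φ, h1, h2, h3, rfl⟩ := sur c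
      exact ⟨⟨φ, h1, h2⟩, rfl⟩)
    (by
      rintro ⟨φ, h1, h2⟩ h
      have h1 : CS n φ := h1
      have h2 : ∀ a ∉ range j, LZ (n + 1) (dT T φ) a := h2
      obtain ⟨ψ, h3, h4⟩ : pc i 1 φ ∈ Bc (fun x y => T (i x) (i y)) n := (mk_eq_zero_iff _).1 h
      refine (mk_eq_zero_iff ⟨_, hb φ h1 h2⟩).2 ?_
      obtain ⟨ψ', h5, h6⟩ : ∃ ψ' : Co W, (∀ q, q + 1 = n → CS q ψ') ∧
          ∀ k, LZ n (pc i 1 (φ - dT T ψ')) k := by
        cases n with
        | zero =>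
          refine ⟨0, fun q _ => CS.zero q, fun k => ?_⟩
          have := (h4 k).add (lz_zero_dT (fun x y => T (i x) (i y)) ψ k)
          rwa [dT_zero, sub_zero, ← sub_add_cancel (pc i 1 φ)]
        | succ q =>
          obtain ⟨ψ', h5, rfl⟩ := ext_closed hi (h3 q rfl)
          refine ⟨ψ', fun q' hq => by rwa [Nat.succ_injective hq], fun k => ?_⟩
          rw [lese_pc_sub, pc_one_dT]
          exact h4 k
      have h7 := h1.sub (lese_cs_dT T h5)
      obtain ⟨χ, h8, h9⟩ := taut hi.isClosed_range T h7 (van.1 h6) fun a h => by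
        rw [dT_sub]
        exact (h2 a ((hm a).2 h)).sub (hT.lz_dT_dT _ ψ' a)
      have h10 := h7.sub (lese_cs_dT T fun q hq => (h8 q hq).1)
      refine ⟨pc j 1 (φ - dT T ψ' - dT T χ), fun q hq => ?_, fun u => ?_⟩
      · rw [Nat.succ_injective hq]
        exact cs_of_open hj h10 fun a h => h9 a ((hm a).1 h)
      · show LZ (n + 1) (pc j 1 (dT T φ) - _) u
        rw [← pc_one_dT, ← lese_pc_sub, dT_sub, dT_sub, sub_sub, sub_sub_cancel]
        exact ((hT.lz_dT_dT _ ψ' _).add (hT.lz_dT_dT _ χ _)).pc hj.continuous 1)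
  exact ⟨δ, fun φ h1 h2 => ⟨ha φ h1 h2, hb φ h1 h2, hδ ⟨φ, h1, h2⟩⟩, sur⟩

end Vale.Agent.P265.L
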