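import Vale.Agent.P265.T.Alg

/-! Part T: functoriality. PLAN. pc f κ is linear; LZ pulls back along continuous f (preimage neighbourhood, List.length_map); CS along proper f
(IsProperMap.isCompact_preimage). dT T (pc φ) - pc (dT T' φ) is LZ by Gauge and dT_pc (for the empty list both sides vanish). So pc maps Zc to Zc and Bc to Bc:
Submodule.mapQ of LinearMap.restrict. unique: Submodule.Quotient.mk_surjective / quotient induction. hb_homeo: the inverse is the pull back along e.symm with gauge (κ ∘ e.symm)⁻¹;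
compose with IsPull.comp, both composites are the identity by IsPull.eq_smul (c = 1); LinearEquiv.ofLinear, finrank_eq. -/

open Set Topology Filter

noncomputable section
namespace Vale.Agent.P265.L

variable {W W' W'' : Type} [TopologicalSpace W] [TopologicalSpace W'] [TopologicalSpace W'']

theorem LZ.pc {f : W → W'} (hf : Continuous f) (κ : W → F3) {p : ℕ} {φ : Co W'} {a : W}
    (h : LZ p φ (f a)) : LZ p (pc f κ φ) a := by
  obtain ⟨U, hU, h⟩ := h
  refine ⟨f ⁻¹' U, hf.continuousAt.preimage_mem_nhds hU, fun x l hl hx hy => ?_⟩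
  have := h (f x) (l.map f) (by rw [List.length_map, hl]) hx fun y hy' => by
    obtain ⟨z, hz, rfl⟩ := List.mem_map.1 hy'
    exact hy z hz
  show κ x * φ (f x) (l.map f) = 0
  rw [this, mul_zero]

theorem CS.pc {f : W → W'} (hf : IsProperMap f) (κ : W → F3) {p : ℕ} {φ : Co W'}
    (h : CS p φ) : CS p (pc f κ φ) := by
  obtain ⟨K, hK, h⟩ := h
  exact ⟨f ⁻¹' K, hf.isCompact_preimage hK, fun a ha => (h (f a) ha).pc hf.continuous κ⟩

theorem Gauge.lz {f : W → W'} {κ : W → F3} {T : W → W → F3} {T' : W' → W' → F3}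
    (hg : Gauge f κ T T') (p : ℕ) (φ : Co W') (a : W) :
    LZ p (dT T (pc f κ φ) - pc f κ (dT T' φ)) a := by
  obtain ⟨U, hU, h⟩ := hg a
  refine ⟨U, hU, fun x l _ hx hy => ?_⟩
  cases l with
  | nil => simp [dT, pc]
  | cons y l =>
    rw [Pi.sub_apply, Pi.sub_apply, dT_pc φ x y l (h x hx y (hy y List.mem_cons_self)), sub_self]

theorem gauge_one (f : W → W') (T' : W' → W' → F3) :
    Gauge f 1 (fun x y => T' (f x) (f y)) T' :=
  fun _ => ⟨univ, univ_mem, fun x _ y _ => by simp⟩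

theorem LocSys.comap {T' : W' → W' → F3} (h : LocSys T') {f : W → W'} (hf : Continuous f) :
    LocSys fun x y => T' (f x) (f y) := fun a => by
  obtain ⟨U, hU, h⟩ := h (f a)
  exact ⟨f ⁻¹' U, hf.continuousAt.preimage_mem_nhds hU, fun x hx =>
    ⟨(h _ hx).1, fun y hy z hz => (h _ hx).2 _ hy _ hz⟩⟩

/-- The pull back as a linear map. -/
def pull_lin {W W' : Type} (f : W → W') (κ : W → F3) : Co W' →ₗ[F3] Co W where
  toFun := pc f κ
  map_add' φ ψ := by
    funext x l
    simp only [pc, Pi.add_apply, mul_add]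
  map_smul' c φ := by
    funext x l
    simp only [pc, Pi.smul_apply, smul_eq_mul, RingHom.id_apply]
    ring

theorem pull_Z {f : W → W'} (hf : IsProperMap f) {κ : W → F3} {T : W → W → F3}
    {T' : W' → W' → F3} (hg : Gauge f κ T T') (n : ℕ) {φ : Co W'} (h : φ ∈ Zc T' n) :
    pull_lin f κ φ ∈ Zc T n := by
  refine ⟨h.1.pc hf κ, fun a => ?_⟩
  have := (hg.lz (n + 1) φ a).add ((h.2 (f a)).pc hf.continuous κ)
  rwa [sub_add_cancel] at this

theorem pull_B {f : W → W'} (hf : IsProperMap f) {κ : W → F3} {T : W → W → F3}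
    {T' : W' → W' → F3} (hg : Gauge f κ T T') (n : ℕ) {φ : Co W'} (h : φ ∈ Bc T' n) :
    pull_lin f κ φ ∈ Bc T n := by
  obtain ⟨ψ, h1, h2⟩ := h
  refine ⟨pc f κ ψ, fun q hq => (h1 q hq).pc hf κ, fun a => ?_⟩
  have := ((h2 (f a)).pc hf.continuous κ).sub (hg.lz n ψ a)
  have e : pc f κ (φ - dT T' ψ) = pc f κ φ - pc f κ (dT T' ψ) := (pull_lin f κ).map_sub _ _
  rwa [e, sub_sub, add_sub_cancel] at this

theorem exists_pull {f : W → W'} (hf : IsProperMap f) {κ : W → F3} {T : W → W → F3}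
    {T' : W' → W' → F3} (hg : Gauge f κ T T') (n : ℕ) :
    ∃ L : Hc T' n →ₗ[F3] Hc T n, IsPull f κ L :=
  ⟨Submodule.mapQ _ _ ((pull_lin f κ).restrict fun _ h => pull_Z hf hg n h)
    fun _ h => pull_B hf hg n h, fun φ => ⟨pull_Z hf hg n φ.2, rfl⟩⟩

theorem IsPull.unique {f : W → W'} {κ : W → F3} {T : W → W → F3} {T' : W' → W' → F3} {n : ℕ}
    {L L' : Hc T' n →ₗ[F3] Hc T n} (h : IsPull f κ L) (h' : IsPull f κ L') : L = L' := by
  refine LinearMap.ext fun v => ?_
  obtain ⟨φ, rfl⟩ := Submodule.Quotient.mk_surjective _ v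
  obtain ⟨_, e⟩ := h φ
  obtain ⟨_, e'⟩ := h' φ
  rw [e, e']

theorem IsPull.comp {f : W → W'} {g : W' → W''} {κ : W → F3} {κ' : W' → F3} {T : W → W → F3}
    {T' : W' → W' → F3} {T'' : W'' → W'' → F3} {n : ℕ} {L : Hc T' n →ₗ[F3] Hc T n}
    {L' : Hc T'' n →ₗ[F3] Hc T' n} (h : IsPull f κ L) (h' : IsPull g κ' L') :
    IsPull (g ∘ f) (fun x => κ x * κ' (f x)) (L ∘ₗ L') := fun φ => by
  obtain ⟨h1, e1⟩ := h' φ
  obtain ⟨h2, e2⟩ := h ⟨_, h1⟩
  have e : pc (g ∘ f) (fun x => κ x * κ' (f x)) φ.1 = pc f κ (pc g κ' φ.1) := by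
    funext x l
    simp only [pc, List.map_map, Function.comp_apply, mul_assoc]
  refine ⟨e ▸ h2, ?_⟩
  rw [LinearMap.comp_apply, e1, e2]
  exact congrArg _ (Subtype.ext e.symm)

theorem IsPull.eq_smul {f : W → W} {κ : W → F3} {T : W → W → F3} {n : ℕ}
    {L : Hc T n →ₗ[F3] Hc T n} (h : IsPull f κ L) (hf : ∀ x, f x = x) {c : F3} (hc : ∀ x, κ x = c) :
    L = c • LinearMap.id := by
  refine LinearMap.ext fun v => ?_
  obtain ⟨φ, rfl⟩ := Submodule.Quotient.mk_surjective _ v
  obtain ⟨_, e⟩ := h φ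
  rw [e, LinearMap.smul_apply, LinearMap.id_apply, ← Submodule.Quotient.mk_smul]
  refine congrArg _ (Subtype.ext ?_)
  obtain rfl : f = id := funext hf
  funext x l
  simp only [pc, hc, List.map_id, id, Submodule.coe_smul, Pi.smul_apply, smul_eq_mul]

theorem pull_gauge_symm (e : W ≃ₜ W') {κ : W → F3} (hκ : ∀ x, κ x ≠ 0) {T : W → W → F3}
    {T' : W' → W' → F3} (hg : Gauge e κ T T') :
    Gauge e.symm (fun y => (κ (e.symm y))⁻¹) T' T := fun a => by
  obtain ⟨U, hU, h⟩ := hg (e.symm a)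
  refine ⟨e.symm ⁻¹' U, e.symm.continuous.continuousAt.preimage_mem_nhds hU, fun x hx y hy => ?_⟩
  have := h _ hx _ hy
  rw [e.apply_symm_apply, e.apply_symm_apply] at this
  have h1 := hκ (e.symm x)
  have h2 := hκ (e.symm y)
  show T' x y * (κ (e.symm y))⁻¹ = (κ (e.symm x))⁻¹ * T (e.symm x) (e.symm y)
  field_simp
  linear_combination -this

theorem hb_homeo (e : W ≃ₜ W') {κ : W → F3} (hκ : ∀ x, κ x ≠ 0) {T : W → W → F3}
    {T' : W' → W' → F3} (hg : Gauge e κ T T') (f : ℕ → ℕ) : HB T f ↔ HB T' f := by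
  have key : ∀ n, Nonempty (Hc T' n ≃ₗ[F3] Hc T n) := fun n => by
    obtain ⟨L, hL⟩ := exists_pull e.isProperMap hg n
    obtain ⟨L', hL'⟩ := exists_pull e.symm.isProperMap (pull_gauge_symm e hκ hg) n
    have h1 := (hL.comp hL').eq_smul e.symm_apply_apply (c := 1) fun x => by
      simp only [e.symm_apply_apply]
      exact mul_inv_cancel₀ (hκ x)
    have h2 := (hL'.comp hL).eq_smul e.apply_symm_apply (c := 1) fun x =>
      inv_mul_cancel₀ (hκ _)
    rw [one_smul] at h1 h2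
    exact ⟨LinearEquiv.ofLinear L L' h1 h2⟩
  refine forall_congr' fun n => ?_
  obtain ⟨E⟩ := key n
  rw [E.finrank_eq]
  exact and_congr_left' ⟨fun _ => E.symm.finiteDimensional, fun _ => E.finiteDimensional⟩

/-- A retract has smaller Betti numbers. -/
theorem hb_retract {p : W → W'} {s : W' → W} (hp : IsProperMap p) (hs : IsProperMap s)
    (h : ∀ x, p (s x) = x) {T' : W' → W' → F3} {n : ℕ}
    [FiniteDimensional F3 (Hc (fun x y => T' (p x) (p y)) n)] :
    FiniteDimensional F3 (Hc T' n) ∧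
      Module.finrank F3 (Hc T' n) ≤ Module.finrank F3 (Hc (fun x y => T' (p x) (p y)) n) := by
  obtain ⟨L, hL⟩ := exists_pull hp (gauge_one p T') n
  have hg : Gauge s 1 T' fun x y => T' (p x) (p y) :=
    fun _ => ⟨univ, univ_mem, fun x _ y _ => by simp [h]⟩
  obtain ⟨L', hL'⟩ := exists_pull hs hg n
  have h1 := (hL'.comp hL).eq_smul h (c := 1) fun x => by simp
  rw [one_smul] at h1
  have hinj : Function.Injective L :=
    Function.LeftInverse.injective (g := L') fun v => LinearMap.congr_fun h1 v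
  exact ⟨FiniteDimensional.of_injective L hinj, LinearMap.finrank_le_finrank_of_injective hinj⟩

end Vale.Agent.P265.L
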